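import Vale.Agent.P207.N3.H319.Exp
import Vale.Agent.P207.N3.H319.Close
import Vale.Agent.P207.N3.H147.Fwd

/-!
# P207, line N3: the closing data of `θ_m = k β^m` (1.5) as numbers

For a closed orbit `o` with a normal coordinate `n` of triangular form the output `Closing` of
helper147 gives traces, determinants and periods as consumed by helper319 (`Clos`).

* `iter_fn`, `hasFDerivAt_iter` : the iterates of `tri μ₁ μ₂ a j` and their derivatives;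
* `rho_closing` : `ρ(θ_m)`;
* `exists_clos`.
-/

open Set Filter Topology Metric MeasureTheory
open scoped ContDiff

set_option linter.unusedSectionVars false

noncomputable section

namespace Vale.Agent.P207.N3.H905

open H790 (NF)
open H319 (tr rho rad e0 e1)

/-! ### iterates of the normal form -/

section Iter

variable {μ₁ μ₂ a : ℝ} {j : ℕ}

/-- the off-diagonal entry of `D(N^m)(w)` -/
def offd (μ₁ a : ℝ) (j m : ℕ) (s : ℝ) : ℝ := a / μ₁ * j * (m * s ^ (j - 1)) * μ₁ ^ m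

theorem iter_fn (h : (NF.tri μ₁ μ₂ a j).OK) (m : ℕ) (x : E2) :
    ((NF.tri μ₁ μ₂ a j).fn)^[m] x
      = !₂[μ₁ ^ m * x 0 + μ₁ ^ m * (m * (a / μ₁)) * x 1 ^ j, μ₂ ^ m * x 1] := by
  obtain ⟨hμ₁, hμ₂⟩ := NF.ne_of_OK h
  induction m with
  | zero =>
    refine NF.ext2 ?_ ?_ <;> simp
  | succ m ih =>
    rw [Function.iterate_succ_apply', ih]
    refine NF.ext2 ?_ ?_
    · rw [NF.fn_tri_zero]
      simp only [Matrix.cons_val_zero, Matrix.cons_val_one, Nat.cast_add, Nat.cast_one]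
      by_cases ha : a = 0
      · subst ha
        ring
      · obtain ⟨-, hk⟩ := h.2.2 ha
        have h1 : (μ₂ ^ m * x 1) ^ j = μ₁ ^ m * x 1 ^ j := by
          rw [mul_pow, ← pow_mul, mul_comm m j, pow_mul, ← hk]
        rw [h1]
        field_simp
        ring
    · rw [NF.fn_tri_one]
      simp only [Matrix.cons_val_zero, Matrix.cons_val_one]
      ring

/-- the matrix of `D(N^m)(x)` -/
def dIter (μ₁ μ₂ a : ℝ) (j m : ℕ) (x : E2) : E2 →L[ℝ] E2 :=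
  LinearMap.toContinuousLinearMap
    (Matrix.toEuclideanLin !![μ₁ ^ m, offd μ₁ a j m (x 1); 0, μ₂ ^ m])

theorem dIter_apply (μ₁ μ₂ a : ℝ) (j m : ℕ) (x v : E2) :
    dIter μ₁ μ₂ a j m x v = !₂[μ₁ ^ m * v 0 + offd μ₁ a j m (x 1) * v 1, μ₂ ^ m * v 1] := by
  ext i
  fin_cases i <;> simp [dIter, Matrix.toEuclideanLin, Matrix.toLpLin_apply,
    dotProduct, Fin.sum_univ_two]

theorem hasFDerivAt_iter (h : (NF.tri μ₁ μ₂ a j).OK) (m : ℕ) (x : E2) :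
    HasFDerivAt ((NF.tri μ₁ μ₂ a j).fn)^[m] (dIter μ₁ μ₂ a j m x) x := by
  have hf : ((NF.tri μ₁ μ₂ a j).fn)^[m] = fun x =>
      !₂[μ₁ ^ m * x 0 + μ₁ ^ m * (m * (a / μ₁)) * x 1 ^ j, μ₂ ^ m * x 1] := by
    funext x
    exact iter_fn h m x
  rw [hf, ← hasFDerivWithinAt_univ, hasFDerivWithinAt_euclidean]
  intro i
  rw [hasFDerivWithinAt_univ]
  have h0 : HasFDerivAt (fun x : E2 => x 0) (EuclideanSpace.proj (𝕜 := ℝ) (0 : Fin 2)) x :=
    (EuclideanSpace.proj (𝕜 := ℝ) (0 : Fin 2)).hasFDerivAt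
  have h1 : HasFDerivAt (fun x : E2 => x 1) (EuclideanSpace.proj (𝕜 := ℝ) (1 : Fin 2)) x :=
    (EuclideanSpace.proj (𝕜 := ℝ) (1 : Fin 2)).hasFDerivAt
  fin_cases i
  · refine ((h0.const_mul (μ₁ ^ m)).add
      ((h1.pow j).const_mul (μ₁ ^ m * (m * (a / μ₁))))).congr_fderiv ?_
    ext v
    simp only [_root_.add_apply, _root_.smul_apply,
      PiLp.proj_apply, ContinuousLinearMap.comp_apply, smul_eq_mul]
    rw [dIter_apply]
    simp [offd]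
    ring
  · refine (h1.const_mul (μ₂ ^ m)).congr_fderiv ?_
    ext v
    simp only [_root_.smul_apply, PiLp.proj_apply, ContinuousLinearMap.comp_apply, smul_eq_mul]
    rw [dIter_apply]
    simp

theorem fderiv_iter (h : (NF.tri μ₁ μ₂ a j).OK) (m : ℕ) (x : E2) :
    fderiv ℝ ((NF.tri μ₁ μ₂ a j).fn)^[m] x = dIter μ₁ μ₂ a j m x :=
  (hasFDerivAt_iter h m x).fderiv

/-- the trace of `D(N^m)(x) ∘ M` -/
theorem tr_dIter_comp (m : ℕ) (x : E2) (M : E2 →L[ℝ] E2) :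
    tr (dIter μ₁ μ₂ a j m x ∘L M) = μ₁ ^ m * (M e0) 0 + offd μ₁ a j m (x 1) * (M e0) 1
      + μ₂ ^ m * (M e1) 1 := by
  rw [H319.tr_eq]
  simp only [ContinuousLinearMap.comp_apply, dIter_apply]
  simp

/-- the determinant of `D(N^m)(x)` -/
theorem det_dIter (m : ℕ) (x : E2) : (dIter μ₁ μ₂ a j m x).det = (μ₁ * μ₂) ^ m := by
  rw [H319.det_eq]
  simp only [dIter_apply]
  simp
  ring

theorem det_dIter_comp (m : ℕ) (x : E2) (M : E2 →L[ℝ] E2) :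
    (dIter μ₁ μ₂ a j m x ∘L M).det = (μ₁ * μ₂) ^ m * ((M e0) 0 * (M e1) 1 - (M e1) 0 * (M e0) 1) := by
  rw [H319.det_comp, det_dIter, H319.det_eq M]

end Iter

/-! ### the closing orbits -/

variable {Γ X B : Type} [Group Γ] [MetricSpace X] [ProperSpace X] [MulAction Γ X]
  [IsIsometricSMul Γ X] [TopologicalSpace B] [CompactSpace B] [T2Space B] [MulAction Γ B]
  [ContinuousConstSMul Γ B]

variable {L : Leaf Γ X B} {o : Orb L} {c : ℝ} {k : Γ} {Bk : E2 →L[ℝ] E2}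

/-- the closing formula determines the conjugacy class of `o'.E` -/
theorem of_form {o' : Orb L} {D : E2 →L[ℝ] E2} {P : E2 ≃L[ℝ] E2}
    (h : D ∘L ((P : E2 →L[ℝ] E2) ∘L fderiv ℝ o'.ret 0) = (P : E2 →L[ℝ] E2)) :
    rho o'.E = rho D ∧ o'.E.det = D.det := by
  have h1 : D ∘L (P : E2 →L[ℝ] E2) = (P : E2 →L[ℝ] E2) ∘L o'.E := by
    calc D ∘L (P : E2 →L[ℝ] E2)
        = D ∘L ((P : E2 →L[ℝ] E2) ∘L (fderiv ℝ o'.ret 0 ∘L o'.E)) := by
          rw [o'.ret_comp_E, ContinuousLinearMap.comp_id]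
      _ = (D ∘L ((P : E2 →L[ℝ] E2) ∘L fderiv ℝ o'.ret 0)) ∘L o'.E := by
          simp only [ContinuousLinearMap.comp_assoc]
      _ = (P : E2 →L[ℝ] E2) ∘L o'.E := by rw [h]
  have h2 : o'.E = (P.symm : E2 →L[ℝ] E2) ∘L D ∘L (P : E2 →L[ℝ] E2) := by
    rw [h1, ← ContinuousLinearMap.comp_assoc, P.coe_symm_comp_coe, ContinuousLinearMap.id_comp]
  refine ⟨H319.rho_conj P.coe_symm_comp_coe P.coe_comp_coe_symm h2, ?_⟩
  have h3 : (P.symm : E2 →L[ℝ] E2).det * (P : E2 →L[ℝ] E2).det = 1 := by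
    rw [← H319.det_comp, P.coe_symm_comp_coe]
    exact LinearMap.det_id
  rw [h2, H319.det_comp, H319.det_comp]
  linear_combination D.det * h3

/-- the matrix of a linear map of the plane -/
def bm (M : E2 →L[ℝ] E2) (i j : Fin 2) : ℝ := M (EuclideanSpace.single j 1) i

theorem bm_le (M : E2 →L[ℝ] E2) (i j : Fin 2) : |bm M i j| ≤ ‖M‖ := by
  unfold bm
  have h1 : ‖M (EuclideanSpace.single j 1)‖ ≤ ‖M‖ := by
    have := M.le_opNorm (EuclideanSpace.single j (1 : ℝ))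
    simpa using this
  have h2 := PiLp.norm_apply_le (M (EuclideanSpace.single j 1)) i
  rw [Real.norm_eq_abs] at h2
  exact h2.trans h1

theorem bm_add (M M' : E2 →L[ℝ] E2) (i j : Fin 2) : bm (M + M') i j = bm M i j + bm M' i j := by
  simp [bm]

/-- the off-diagonal entries are at most `C m |μ₂|^m` -/
theorem offd_le {μ₁ μ₂ a : ℝ} {j : ℕ} (h : (NF.tri μ₁ μ₂ a j).OK) {w : ℕ → E2} {v : E2}
    (hw : Tendsto (fun m => ((NF.tri μ₁ μ₂ a j).fn)^[m] (w m)) atTop (𝓝 v)) :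
    ∃ C : ℝ, ∀ m : ℕ, |offd μ₁ a j m (w m 1)| ≤ C * (m * |μ₂| ^ m) := by
  obtain ⟨hμ₁, hμ₂⟩ := NF.ne_of_OK h
  have h1 : Tendsto (fun m => (((NF.tri μ₁ μ₂ a j).fn)^[m] (w m)) 1) atTop (𝓝 (v 1)) :=
    ((EuclideanSpace.proj (𝕜 := ℝ) (1 : Fin 2)).continuous.tendsto v).comp hw
  obtain ⟨K, hK⟩ := h1.abs.bddAbove_range
  have hK' : ∀ m, |μ₂| ^ m * |w m 1| ≤ K := by
    intro m
    have h2 := hK ⟨m, rfl⟩
    simp only [iter_fn h] at h2
    simpa [abs_mul, abs_pow] using h2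
  have hK0 : 0 ≤ K := le_trans (by positivity) (hK' 0)
  by_cases ha : a = 0
  · refine ⟨0, fun m => ?_⟩
    simp [offd, ha]
  obtain ⟨hj, hk⟩ := h.2.2 ha
  refine ⟨|a / μ₁| * j * K ^ (j - 1), fun m => ?_⟩
  obtain ⟨i, rfl⟩ : ∃ i, j = i + 1 := ⟨j - 1, by omega⟩
  have h3 : μ₁ ^ m = μ₂ ^ m * (μ₂ ^ m) ^ i := by
    rw [hk, ← pow_mul, mul_comm (i + 1) m, mul_add, pow_add, pow_mul, mul_one]
    ring
  unfold offd
  rw [h3, Nat.add_sub_cancel, abs_mul, abs_mul, abs_mul, abs_mul, abs_mul, Nat.abs_cast,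
    Nat.abs_cast, abs_pow, abs_pow, abs_pow, abs_pow]
  have h4 : (|μ₂| ^ m * |w m 1|) ^ i ≤ K ^ i := pow_le_pow_left₀ (by positivity) (hK' m) i
  calc |a / μ₁| * ((i + 1 : ℕ) : ℝ) * (m * |w m 1| ^ i) * (|μ₂| ^ m * (|μ₂| ^ m) ^ i)
      = |a / μ₁| * ((i + 1 : ℕ) : ℝ) * (m * |μ₂| ^ m) * (|μ₂| ^ m * |w m 1|) ^ i := by
        rw [mul_pow]
        ring
    _ ≤ |a / μ₁| * ((i + 1 : ℕ) : ℝ) * (m * |μ₂| ^ m) * K ^ i := by gcongr
    _ = |a / μ₁| * ((i + 1 : ℕ) : ℝ) * K ^ i * (m * |μ₂| ^ m) := by ring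

/-- the closing orbit -/
theorem closing_orb [MeasurableSpace B] [BorelSpace B] (A : Area L) {x : B → E2} {μ₁ μ₂ a : ℝ}
    {j : ℕ} (hok : (NF.tri μ₁ μ₂ a j).OK)
    (Z : H147.Closing o x (NF.tri μ₁ μ₂ a j).fn c k Bk) :
    ∀ᶠ m in atTop, ∃ o' : Orb L, o'.β = k * o.β ^ m ∧ o'.x = Z.z m ∧ o'.l = Z.lz m ∧
      rho o'.E = rad (tr (dIter μ₁ μ₂ a j m (Z.w m) ∘L (Bk + Z.E m)))
        (dIter μ₁ μ₂ a j m (Z.w m) ∘L (Bk + Z.E m)).det ∧
      |(dIter μ₁ μ₂ a j m (Z.w m) ∘L (Bk + Z.E m)).det| = Real.exp (A.h * Z.lz m) := by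
  filter_upwards [Z.axis, Z.form] with m h1 h2
  rw [fderiv_iter hok] at h2
  obtain ⟨h3, h4⟩ := of_form (o' := ⟨k * o.β ^ m, Z.z m, Z.lz m, Z.az m, h1⟩) h2
  refine ⟨⟨k * o.β ^ m, Z.z m, Z.lz m, Z.az m, h1⟩, rfl, rfl, rfl, h3, ?_⟩
  rw [← h4, Orb.abs_det _ A]

/-- **the closing data** -/
theorem exists_data [MeasurableSpace B] [BorelSpace B] (A : Area L) {x : B → E2} {μ₁ μ₂ a : ℝ}
    {j : ℕ} (hok : (NF.tri μ₁ μ₂ a j).OK)
    (Z : H147.Closing o x (NF.tri μ₁ μ₂ a j).fn c k Bk) :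
    ∃ a' t d lm : ℕ → ℝ,
      Tendsto (fun m => lm m - m * o.l) atTop (𝓝 (L.lv (L.hol o.neg (k • o.x)) - L.lv o.x)) ∧
      (∃ C : ℝ, ∃ e : ℕ → Fin 2 → Fin 2 → ℝ,
        (∀ m i j, |e m i j| ≤ C * Real.exp (-(c * o.l * m))) ∧
        ∀ᶠ m in atTop, (t m = μ₁ ^ m * (bm Bk 0 0 + e m 0 0) + a' m * (bm Bk 1 0 + e m 1 0)
            + μ₂ ^ m * (bm Bk 1 1 + e m 1 1)) ∧
          d m = (μ₁ * μ₂) ^ m * ((bm Bk 0 0 + e m 0 0) * (bm Bk 1 1 + e m 1 1)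
            - (bm Bk 0 1 + e m 0 1) * (bm Bk 1 0 + e m 1 0))) ∧
      (∀ᶠ m in atTop, |d m| = Real.exp (A.h * lm m)) ∧
      (∃ C : ℝ, ∀ m : ℕ, |a' m| ≤ C * (m * |μ₂| ^ m)) ∧ (a = 0 → ∀ m, a' m = 0) ∧
      (j = 1 → ∀ m : ℕ, a' m = a / μ₁ * m * μ₁ ^ m) ∧
      ∀ᶠ m in atTop, ∃ o' : Orb L, o'.β = k * o.β ^ m ∧ o'.x = Z.z m ∧ o'.l = lm m ∧
        rho o'.E = rad (t m) (d m) := by
  classical
  have horb := closing_orb A hok Z
  obtain ⟨C, hC⟩ := Z.err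
  have hw := Z.w_lim
  refine ⟨fun m => offd μ₁ a j m (Z.w m 1),
    fun m => tr (dIter μ₁ μ₂ a j m (Z.w m) ∘L (Bk + Z.E m)),
    fun m => (dIter μ₁ μ₂ a j m (Z.w m) ∘L (Bk + Z.E m)).det, Z.lz, Z.per, ?_, ?_,
    offd_le hok hw, ?_, ?_, ?_⟩
  · refine ⟨|C|, fun m => if ‖Z.E m‖ ≤ C * Real.exp (-c * o.l * m) then bm (Z.E m) else 0, ?_, ?_⟩
    · intro m i' j'
      have h0 : C * Real.exp (-c * o.l * m) ≤ |C| * Real.exp (-(c * o.l * m)) := by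
        have : -c * o.l * m = -(c * o.l * m) := by ring
        rw [this]
        exact mul_le_mul_of_nonneg_right (le_abs_self C) (Real.exp_pos _).le
      simp only
      split_ifs with h1
      · exact ((bm_le _ _ _).trans h1).trans h0
      · simp only [Pi.zero_apply, abs_zero]
        positivity
    · filter_upwards [hC] with m hm
      simp only [if_pos hm]
      rw [tr_dIter_comp, det_dIter_comp]
      have e1 : ∀ i' j', bm Bk i' j' + bm (Z.E m) i' j' = bm (Bk + Z.E m) i' j' :=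
        fun i' j' => (bm_add _ _ _ _).symm
      simp only [e1]
      exact ⟨rfl, rfl⟩
  · filter_upwards [horb] with m hm
    obtain ⟨o', -, -, -, -, h⟩ := hm
    exact h
  · intro ha m
    simp [offd, ha]
  · intro hj m
    subst hj
    simp [offd, mul_assoc]
  · filter_upwards [horb] with m hm
    obtain ⟨o', h1, h2, h3, h4, -⟩ := hm
    exact ⟨o', h1, h2, h3, h4⟩

/-- **(C1)**: the closing data in the form of helper319 -/
theorem exists_clos [MeasurableSpace B] [BorelSpace B] (A : Area L) (n : Nor L o) {μ₁ μ₂ a : ℝ}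
    {j : ℕ} (hN : n.N = .tri μ₁ μ₂ a j) (hc : 0 < c)
    (Z : H147.Closing o n.x n.N.fn c k Bk) :
    ∃ a' t d lm : ℕ → ℝ,
      H319.Clos n.lam1 n.lam2 o.l (L.lv (L.hol o.neg (k • o.x)) - L.lv o.x) c A.h μ₁ μ₂ (bm Bk)
        a' t d lm ∧
      (∃ C : ℝ, ∀ m : ℕ, |a' m| ≤ C * (m * |μ₂| ^ m)) ∧ (a = 0 → ∀ m, a' m = 0) ∧
      (j = 1 → ∀ m : ℕ, a' m = a / μ₁ * m * μ₁ ^ m) ∧
      ∀ᶠ m in atTop, ∃ o' : Orb L, o'.β = k * o.β ^ m ∧ o'.l = lm m ∧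
        rho o'.E = rad (t m) (d m) := by
  have hok : (NF.tri μ₁ μ₂ a j).OK := hN ▸ n.ok
  have Z' : H147.Closing o n.x (NF.tri μ₁ μ₂ a j).fn c k Bk := by
    rw [← hN]
    exact Z
  obtain ⟨a', t, d, lm, h1, h2, h3, h4, h5, h6, h7⟩ := exists_data A hok Z'
  refine ⟨a', t, d, lm, ⟨o.ax.pos, hc, ?_, ?_, h1, h2, h3⟩, h4, h5, h6, ?_⟩
  · rw [n.exp_lam1, hN]
    rfl
  · rw [n.exp_lam2, hN]
    rfl
  · filter_upwards [h7] with m hm
    obtain ⟨o', g1, -, g3, g4⟩ := hm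
    exact ⟨o', g1, g3, g4⟩

end Vale.Agent.P207.N3.H905
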