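import Vale.Agent.P207.N3.H545.Dir
import Vale.Agent.P207.N3.Top.Defs

/-!
# P207, line N3: REG, part A: calculus lemmas

* `quad` : `g v = A (F v) + O(|F v|²)` for a local chart `F` and `A ∘ DF(0) = Dg(0)`;
* `CkB_rot`, `Wf_rot_CkB` : bounds do not change under a rotation of the frame.
-/

open Set Filter Topology Metric MeasureTheory
open scoped ContDiff

set_option linter.unusedSectionVars false
set_option maxSynthPendingDepth 3

noncomputable section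

namespace Vale.Agent.P207.N3.H905

/-- an invertible endomorphism of the plane is bounded below -/
theorem exists_lower {G : E2 →L[ℝ] E2} (h : G.det ≠ 0) : ∃ c > 0, ∀ v, ‖v‖ ≤ c * ‖G v‖ := by
  have h1 : LinearMap.det (G : E2 →ₗ[ℝ] E2) ≠ 0 := h
  have hinj : Function.Injective G := by
    have h2 := (LinearMap.equivOfDetNeZero (G : E2 →ₗ[ℝ] E2) h1).injective
    exact h2
  obtain ⟨K, hK0, hK⟩ := (G : E2 →ₗ[ℝ] E2).exists_antilipschitzWith
    (LinearMap.ker_eq_bot.2 hinj)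
  refine ⟨K, hK0, fun v => ?_⟩
  have := hK.le_mul_dist v 0
  simpa [dist_eq_norm] using this

/-- a `C²` function vanishing to first order -/
theorem quad_aux {E : Type} [NormedAddCommGroup E] [NormedSpace ℝ E] {g : E → ℝ}
    (hg : ContDiffAt ℝ 2 g 0) (h0 : g 0 = 0) (h1 : fderiv ℝ g 0 = 0) :
    ∃ δ > 0, ∃ C : ℝ, 0 ≤ C ∧ ∀ v ∈ ball (0 : E) δ, |g v| ≤ C * ‖v‖ ^ 2 := by
  have h2 : ContDiffAt ℝ 1 (fderiv ℝ g) 0 := hg.fderiv_right (m := 1) (by norm_num)
  obtain ⟨K, t, ht, hK⟩ := h2.exists_lipschitzOnWith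
  have h3 : ∀ᶠ v in 𝓝 (0 : E), DifferentiableAt ℝ g v := by
    filter_upwards [hg.eventually (by simp)] with v hv
    exact hv.differentiableAt (by simp)
  obtain ⟨δ, hδ, hball⟩ := Metric.mem_nhds_iff.1 (Filter.inter_mem ht h3)
  refine ⟨δ, hδ, K, K.2, fun v hv => ?_⟩
  have hsub : ∀ x ∈ segment ℝ (0 : E) v, ‖x‖ ≤ ‖v‖ := by
    intro x hx
    rw [segment_eq_image] at hx
    obtain ⟨s, hs, rfl⟩ := hx
    simp only [smul_zero, zero_add]
    rw [norm_smul, Real.norm_of_nonneg hs.1]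
    nlinarith [norm_nonneg v, hs.2]
  have hmem : ∀ x ∈ segment ℝ (0 : E) v, x ∈ ball (0 : E) δ := fun x hx => by
    rw [mem_ball_zero_iff] at hv ⊢
    exact (hsub x hx).trans_lt hv
  have h4 : ∀ x ∈ segment ℝ (0 : E) v, ‖fderiv ℝ g x‖ ≤ K * ‖v‖ := by
    intro x hx
    have h5 := hK.dist_le_mul x (hball (hmem x hx)).1 0 (mem_of_mem_nhds ht)
    rw [dist_eq_norm, h1, sub_zero, dist_zero_right] at h5
    exact h5.trans (mul_le_mul_of_nonneg_left (hsub x hx) K.2)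
  have h5 := (convex_segment (𝕜 := ℝ) (0 : E) v).norm_image_sub_le_of_norm_fderiv_le (𝕜 := ℝ)
    (fun x hx => (hball (hmem x hx)).2) h4 (left_mem_segment ℝ _ _) (right_mem_segment ℝ _ _)
  rw [h0, sub_zero, sub_zero, Real.norm_eq_abs] at h5
  calc |g v| ≤ K * ‖v‖ * ‖v‖ := h5
    _ = K * ‖v‖ ^ 2 := by ring

/-- `g v = A (F v) + O(|F v|²)` -/
theorem quad {g : E2 → ℝ} {F : E2 → E2} (hg : ContDiffAt ℝ 2 g 0) (hF : ContDiffAt ℝ 2 F 0)
    (hF0 : F 0 = 0) (hdet : (fderiv ℝ F 0).det ≠ 0) {A : E2 →L[ℝ] ℝ}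
    (hA : A ∘L fderiv ℝ F 0 = fderiv ℝ g 0) :
    ∃ δ > 0, ∃ C : ℝ, 0 ≤ C ∧ ∀ v ∈ ball (0 : E2) δ, |g v - g 0 - A (F v)| ≤ C * ‖F v‖ ^ 2 := by
  have hAF : ContDiffAt ℝ 2 (fun v => A (F v)) 0 := A.contDiff.contDiffAt.comp _ hF
  have hh : ContDiffAt ℝ 2 (fun v => g v - g 0 - A (F v)) 0 :=
    (hg.sub contDiffAt_const).sub hAF
  have hd : fderiv ℝ (fun v => g v - g 0 - A (F v)) 0 = 0 := by
    have h1 : HasFDerivAt g (fderiv ℝ g 0) 0 := (hg.differentiableAt (by simp)).hasFDerivAt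
    have h2 : HasFDerivAt F (fderiv ℝ F 0) 0 := (hF.differentiableAt (by simp)).hasFDerivAt
    have h3 : HasFDerivAt (fun v => A (F v)) (A ∘L fderiv ℝ F 0) 0 :=
      A.hasFDerivAt.comp (0 : E2) h2
    have h4 := (h1.sub_const (g 0)).sub h3
    rw [hA, sub_self] at h4
    exact h4.fderiv
  obtain ⟨δ₁, hδ₁, C, hC, h1⟩ := quad_aux hh (by simp [hF0]) hd
  obtain ⟨c, hc, hlow⟩ := exists_lower hdet
  -- lower bound of `F`
  have h2 : HasFDerivAt F (fderiv ℝ F 0) 0 := (hF.differentiableAt (by simp)).hasFDerivAt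
  have h3 : ∀ᶠ v in 𝓝 (0 : E2), ‖F v - fderiv ℝ F 0 v‖ ≤ (2 * c)⁻¹ * ‖v‖ := by
    have := h2.isLittleO.def (show (0 : ℝ) < (2 * c)⁻¹ by positivity)
    filter_upwards [this] with v hv
    simpa [hF0] using hv
  obtain ⟨δ₂, hδ₂, h4⟩ := Metric.eventually_nhds_iff.1 h3
  refine ⟨min δ₁ δ₂, lt_min hδ₁ hδ₂, C * (2 * c) ^ 2, by positivity, fun v hv => ?_⟩
  have hv1 : v ∈ ball (0 : E2) δ₁ := ball_subset_ball (min_le_left _ _) hv
  have hv2 : dist v 0 < δ₂ := by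
    have := ball_subset_ball (min_le_right δ₁ δ₂) hv
    exact this
  have h5 := h4 hv2
  have h6 := hlow v
  have h7 : ‖v‖ ≤ 2 * c * ‖F v‖ := by
    have h8 : ‖fderiv ℝ F 0 v‖ ≤ ‖F v‖ + ‖F v - fderiv ℝ F 0 v‖ := by
      have := norm_sub_le (F v) (F v - fderiv ℝ F 0 v)
      rwa [sub_sub_cancel] at this
    have h9 : ‖v‖ ≤ c * (‖F v‖ + (2 * c)⁻¹ * ‖v‖) :=
      h6.trans (mul_le_mul_of_nonneg_left (h8.trans (by linarith)) hc.le)
    have h10 : c * ((2 * c)⁻¹ * ‖v‖) = ‖v‖ / 2 := by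
      field_simp
    rw [mul_add, h10] at h9
    linarith
  calc |g v - g 0 - A (F v)| ≤ C * ‖v‖ ^ 2 := h1 v hv1
    _ ≤ C * (2 * c * ‖F v‖) ^ 2 := by gcongr
    _ = C * (2 * c) ^ 2 * ‖F v‖ ^ 2 := by ring

variable {Γ X B : Type} [Group Γ] [MetricSpace X] [ProperSpace X] [MulAction Γ X]
  [IsIsometricSMul Γ X] [TopologicalSpace B] [CompactSpace B] [T2Space B] [MulAction Γ B]
  [ContinuousConstSMul Γ B] {L : Leaf Γ X B}

/-- bounds do not change under a rotation -/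
theorem CkB_isom {V : Type} [NormedAddCommGroup V] [NormedSpace ℝ V] {k : ℕ} {r C : ℝ}
    {f : E2 → V} (h : H545.CkB k r C f) (a : O2) : H545.CkB k r C (fun u => f (a u)) := by
  have hm : MapsTo a (ball (0 : E2) r) (ball (0 : E2) r) := fun u hu => by
    rw [mem_ball_zero_iff] at hu ⊢
    rwa [a.norm_map]
  refine ⟨h.1.comp a.contDiff.contDiffOn hm, fun i hi u hu => ?_⟩
  have := a.norm_iteratedFDeriv_comp_right (𝕜 := ℝ) f u i
  have e : (fun u => f (a u)) = f ∘ a := rfl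
  rw [e, this]
  exact h.2 i hi _ (hm hu)

theorem CkB_isom_left {V : Type} [NormedAddCommGroup V] [NormedSpace ℝ V] {k : ℕ} {r C : ℝ}
    {f : E2 → V} (h : H545.CkB k r C f) (a : V ≃ₗᵢ[ℝ] V) :
    H545.CkB k r C (fun u => a (f u)) := by
  refine ⟨a.contDiff.comp_contDiffOn h.1, fun i hi u hu => ?_⟩
  have := a.norm_iteratedFDeriv_comp_left (𝕜 := ℝ) f u i
  have e : (fun u => a (f u)) = a ∘ f := rfl
  rw [e, this]
  exact h.2 i hi _ hu

theorem fun_rot_CkB {k : ℕ} {r C : ℝ} (hr : r ≤ 3) {f : B → ℝ} {z : X}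
    (h : H545.CkB k r C (fun u => f (L.e z u))) (a : O2) :
    H545.CkB k r C (fun u => f (L.e (L.rot a z) u)) := by
  refine H545.CkB_congr (CkB_isom h a) fun u hu => ?_
  rw [L.e_rot a z u (ball_subset_closedBall (ball_subset_ball hr hu))]

/-- the gradient and rotations -/
theorem gradient_isom {g : E2 → ℝ} (a : O2) {u : E2} (hg : DifferentiableAt ℝ g (a u)) :
    gradient (fun v => g (a v)) u = a.symm (gradient g (a u)) := by
  refine ext_inner_right ℝ fun v => ?_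
  rw [H545.inner_gradient]
  have h1 : HasFDerivAt (fun v => g (a v)) ((fderiv ℝ g (a u)) ∘L (a : E2 →L[ℝ] E2)) u :=
    hg.hasFDerivAt.comp u a.toContinuousLinearEquiv.hasFDerivAt
  rw [h1.fderiv]
  have h2 : inner ℝ (a.symm (gradient g (a u))) v = inner ℝ (gradient g (a u)) (a v) := by
    rw [← a.inner_map_map (a.symm (gradient g (a u))) v, a.apply_symm_apply]
  rw [h2, H545.inner_gradient]
  rfl

theorem Wf_rot (T : Tens L) {f : B → ℝ} {z : X} (hf : ContDiffOn ℝ 1 (fun u => f (L.e z u)) (ball 0 3))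
    (a : O2) {u : E2} (hu : u ∈ ball (0 : E2) 3) :
    H545.Wf T f (L.rot a z) u = a.symm (H545.Wf T f z (a u)) := by
  have hau : a u ∈ ball (0 : E2) 3 := by
    rw [mem_ball_zero_iff] at hu ⊢
    rwa [a.norm_map]
  have hd : DifferentiableAt ℝ (fun u => f (L.e z u)) (a u) :=
    (hf.contDiffAt (isOpen_ball.mem_nhds hau)).differentiableAt (by simp)
  have h1 : H545.grd L f (L.rot a z) u = a.symm (H545.grd L f z (a u)) := by
    unfold H545.grd
    rw [← gradient_isom a hd]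
    refine H545.gradient_congr ?_
    filter_upwards [isOpen_ball.mem_nhds hu] with v hv
    rw [L.e_rot a z v (ball_subset_closedBall hv)]
  unfold H545.Wf
  rw [h1, T.N_rot a z u hu, a.apply_symm_apply]

theorem Wf_rot_CkB (T : Tens L) {k : ℕ} {r C : ℝ} (hr : r ≤ 3) {f : B → ℝ} {z : X}
    (hf : ContDiffOn ℝ 1 (fun u => f (L.e z u)) (ball 0 3))
    (h : H545.CkB k r C (H545.Wf T f z)) (a : O2) :
    H545.CkB k r C (H545.Wf T f (L.rot a z)) := by
  refine H545.CkB_congr (CkB_isom_left (CkB_isom h a) a.symm) fun u hu => ?_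
  exact Wf_rot T hf a (ball_subset_ball hr hu)

end Vale.Agent.P207.N3.H905
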