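import Vale.Agent.P207.N3.H905.RegA
import Vale.Agent.P207.N3.H147.Fwd
import Vale.Agent.P207.N3.H828.RatioDir

/-!
# P207, line N3: REG, part B: a function near a homoclinic point, in forward coordinates

`o : Orb L`, `k` with `k β⁺ ≠ β⁻`, `κ = k β⁺`, `z₀ = hol β⁻ (k x₀)` the frame of `U_{β⁻}` at `κ`,
`ζ = k⁻¹ β⁻`. The function `Y s u = F ζ (k⁻¹ e(φ_s z₀) u)` is the forward coordinate of the point
`e (φ_s z₀) u`.
-/

open Set Filter Topology Metric MeasureTheory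
open scoped ContDiff

set_option linter.unusedSectionVars false
set_option maxSynthPendingDepth 3

noncomputable section

namespace Vale.Agent.P207.N3.H905

variable {Γ X B : Type} [Group Γ] [MetricSpace X] [ProperSpace X] [MulAction Γ X]
  [IsIsometricSMul Γ X] [TopologicalSpace B] [CompactSpace B] [T2Space B] [MulAction Γ B]
  [ContinuousConstSMul Γ B] {L : Leaf Γ X B} {o : Orb L} {x : B → E2} {N : E2 → E2} {c : ℝ}
  {k : Γ}

/-- the frame of the leaf of `ζ = k⁻¹ β⁻` at `β⁺` -/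
def y0 (o : Orb L) (k : Γ) : X := L.hol (k⁻¹ • o.neg) o.x

/-- the frame of the leaf of `β⁻` at `κ = k β⁺` -/
def z0 (o : Orb L) (k : Γ) : X := L.hol o.neg (k • o.x)

theorem ep_smul' (g : Γ) (x : X) : L.ep (g • x) = g • L.ep x := by
  rw [L.ep_flip, L.flip_smul, L.em_smul, ← L.ep_flip]

theorem ep_φ' (t : ℝ) (x : X) : L.ep (L.φ t x) = L.ep x := by
  rw [L.ep_flip, L.flip_φ, L.em_φ, ← L.ep_flip]

theorem ep_rot' (a : O2) (x : X) : L.ep (L.rot a x) = L.ep x := by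
  rw [L.ep_flip, L.flip_rot, L.em_rot, ← L.ep_flip]

theorem zeta_ne (hk : k • o.pos ≠ o.neg) : k⁻¹ • o.neg ≠ o.pos := by
  intro h
  apply hk
  rw [← h, smul_inv_smul]

theorem kx_ne (hk : k • o.pos ≠ o.neg) : o.neg ≠ L.ep (k • o.x) := by
  rw [ep_smul']
  exact hk.symm

theorem em_z0 (hk : k • o.pos ≠ o.neg) : L.em (z0 o k) = o.neg := L.hol_em _ _ (kx_ne hk)

theorem ep_z0 (hk : k • o.pos ≠ o.neg) : L.ep (z0 o k) = k • o.pos := by
  rw [z0, L.hol_ep _ _ (kx_ne hk), ep_smul']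
  rfl

theorem em_y0 (hk : k • o.pos ≠ o.neg) : L.em (y0 o k) = k⁻¹ • o.neg :=
  L.hol_em _ _ (zeta_ne hk)

theorem ep_y0 (hk : k • o.pos ≠ o.neg) : L.ep (y0 o k) = o.pos := L.hol_ep _ _ (zeta_ne hk)

theorem smul_y0 (hk : k • o.pos ≠ o.neg) : k • y0 o k = z0 o k := by
  have h := L.hol_smul k (k⁻¹ • o.neg) o.x (zeta_ne hk)
  rw [smul_inv_smul] at h
  exact h.symm

theorem pow_inv_zeta_ne (hk : k • o.pos ≠ o.neg) (m : ℕ) (r : ℝ) :
    (o.β ^ m)⁻¹ • k⁻¹ • o.neg ≠ L.ep (L.φ r o.x) := by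
  rw [ep_φ', Ne, inv_smul_eq_iff]
  intro h
  rw [H147.Ax.pow_smul_ep o.ax] at h
  exact zeta_ne hk h

theorem rot_φ_comm (a : O2) (t : ℝ) (x : X) : L.rot a (L.φ t x) = L.φ t (L.rot a x) :=
  L.rot_φ a t x

/-- **the frames along the orbit of `κ`** -/
theorem frame_eq (hk : k • o.pos ≠ o.neg) (m : ℕ) (r : ℝ) :
    (k * o.β ^ m) • L.hol ((o.β ^ m)⁻¹ • k⁻¹ • o.neg) (L.φ r o.x)
      = L.φ (m * o.l + r) (L.rot (o.a ^ m) (z0 o k)) := by
  rw [← L.hol_smul _ _ _ (pow_inv_zeta_ne hk m r)]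
  have e1 : (k * o.β ^ m) • (o.β ^ m)⁻¹ • k⁻¹ • o.neg = o.neg := by
    rw [mul_smul, smul_inv_smul, smul_inv_smul]
  have e2 : (k * o.β ^ m) • L.φ r o.x = L.φ (m * o.l + r) (L.rot (o.a ^ m) (k • o.x)) := by
    rw [← L.φ_smul, mul_smul, H147.Ax.pow_smul o.ax, ← L.φ_smul, ← L.rot_smul, ← L.φ_add]
    congr 1
    ring
  have hne : o.neg ≠ L.ep (L.rot (o.a ^ m) (k • o.x)) := by
    rw [ep_rot']
    exact kx_ne hk
  rw [e1, e2, L.hol_φ _ _ _ hne, L.hol_rot _ _ _ (kx_ne hk)]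
  rfl

/-- the forward coordinate of the point `e (φ_s z₀) u` -/
def Yf (W : H147.Fwd o x N c) (k : Γ) (s : ℝ) (u : E2) : E2 :=
  W.F (k⁻¹ • o.neg) (k⁻¹ • L.e (L.φ s (z0 o k)) u)

theorem iter0 {E V : Type} [NormedAddCommGroup E] [NormedSpace ℝ E] [NormedAddCommGroup V]
    [NormedSpace ℝ V] (f g : E → V) (u : E) :
    ‖iteratedFDeriv ℝ 0 f u - iteratedFDeriv ℝ 0 g u‖ = ‖f u - g u‖ := by
  rw [iteratedFDeriv_zero_eq_comp, iteratedFDeriv_zero_eq_comp]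
  simp only [Function.comp_apply]
  rw [← map_sub, LinearIsometryEquiv.norm_map]

/-- the forward coordinate in the rotated frame -/
theorem Yf_rot (W : H147.Fwd o x N c) (hk : k • o.pos ≠ o.neg) (m : ℕ) (r : ℝ) {u : E2}
    (hu : u ∈ closedBall (0 : E2) 3) :
    W.F (k⁻¹ • o.neg) (o.β ^ m • L.e (L.hol ((o.β ^ m)⁻¹ • k⁻¹ • o.neg) (L.φ r o.x)) u)
      = Yf W k (m * o.l + r) ((o.a ^ m) u) := by
  unfold Yf
  congr 1
  rw [eq_inv_smul_iff, ← mul_smul, ← L.e_smul _ _ _ hu, frame_eq hk, ← L.rot_φ,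
    L.e_rot _ _ _ hu]

/-- uniform approximation of `N^m Y` -/
theorem approx (W : H147.Fwd o x N c) (hk : k • o.pos ≠ o.neg) {ε : ℝ} (hε : 0 < ε) :
    ∀ᶠ m : ℕ in atTop, ∀ r ∈ Icc (0 : ℝ) o.l, ∀ u ∈ ball (0 : E2) 3,
      ‖N^[m] (Yf W k (m * o.l + r) ((o.a ^ m) u)) - x (L.e (L.φ r o.x) u)‖ ≤ ε := by
  have hQ : IsCompact ((fun r => L.φ r o.x) '' Icc (0 : ℝ) o.l) := by
    refine isCompact_Icc.image ?_
    exact L.φ_cont.comp (continuous_id.prodMk continuous_const)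
  have h := W.conv3 {k⁻¹ • o.neg} isCompact_singleton
    (by simpa using fun h => zeta_ne hk h.symm) _ hQ (by
      rintro _ ⟨r, -, rfl⟩
      rw [L.em_φ]
      rfl) 0 ε hε
  filter_upwards [h] with m hm r hr u hu
  have h1 := hm _ rfl (L.φ r o.x) ⟨r, hr, rfl⟩ u hu
  rw [iter0] at h1
  rwa [Yf_rot W hk m r (ball_subset_closedBall hu)] at h1

/-- `x` is bounded on the discs along the axis -/
theorem x_bdd (hx : L.SmoothOn o.neg x) : ∃ R, ∀ r ∈ Icc (0 : ℝ) o.l, ∀ u ∈ closedBall (0 : E2) 3,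
    ‖x (L.e (L.φ r o.x) u)‖ ≤ R := by
  have h1 : ContinuousOn x {o.neg}ᶜ := H828.continuousOn_of_smoothOn hx
  have h2 : ContinuousOn (fun p : ℝ × E2 => L.e (L.φ p.1 o.x) p.2)
      (Icc (0 : ℝ) o.l ×ˢ closedBall 0 3) := by
    have h3 : Continuous fun p : ℝ × E2 => (L.φ p.1 o.x, p.2) :=
      (L.φ_cont.comp (continuous_fst.prodMk continuous_const)).prodMk continuous_snd
    exact L.e_cont.comp h3.continuousOn fun p hp => ⟨mem_univ _, hp.2⟩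
  have h4 : ContinuousOn (fun p : ℝ × E2 => x (L.e (L.φ p.1 o.x) p.2))
      (Icc (0 : ℝ) o.l ×ˢ closedBall 0 3) := by
    refine h1.comp h2 fun p hp => ?_
    have := L.e_ne (L.φ p.1 o.x) p.2 hp.2
    rw [L.em_φ] at this
    exact this
  obtain ⟨R, hR⟩ := (isCompact_Icc.prod (isCompact_closedBall (0 : E2) 3)).exists_bound_of_continuousOn h4
  exact ⟨R, fun r hr u hu => hR (r, u) ⟨hr, hu⟩⟩

/-- uniform bound of `N^m Y` -/
theorem Y_bdd (W : H147.Fwd o x N c) (hk : k • o.pos ≠ o.neg) (hx : L.SmoothOn o.neg x) :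
    ∃ R, ∀ᶠ m : ℕ in atTop, ∀ r ∈ Icc (0 : ℝ) o.l, ∀ u ∈ ball (0 : E2) 3,
      ‖N^[m] (Yf W k (m * o.l + r) ((o.a ^ m) u))‖ ≤ R := by
  obtain ⟨R, hR⟩ := x_bdd hx
  refine ⟨1 + R, ?_⟩
  filter_upwards [approx W hk one_pos] with m hm r hr u hu
  have h1 := hm r hr u hu
  have h2 := hR r hr u (ball_subset_closedBall hu)
  calc ‖N^[m] (Yf W k (m * o.l + r) ((o.a ^ m) u))‖
      = ‖(N^[m] (Yf W k (m * o.l + r) ((o.a ^ m) u)) - x (L.e (L.φ r o.x) u))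
        + x (L.e (L.φ r o.x) u)‖ := by rw [sub_add_cancel]
    _ ≤ 1 + R := (norm_add_le _ _).trans (add_le_add h1 h2)

/-- convergence of `N^m Y` -/
theorem Y_tendsto (W : H147.Fwd o x N c) (hk : k • o.pos ≠ o.neg) {u : E2}
    (hu : u ∈ ball (0 : E2) 3) :
    Tendsto (fun m : ℕ => N^[m] (Yf W k (m * o.l) ((o.a ^ m) u))) atTop
      (𝓝 (x (L.e o.x u))) := by
  rw [Metric.tendsto_atTop']
  intro ε hε
  have h := (approx W hk (half_pos hε)).and (eventually_ge_atTop 0)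
  obtain ⟨m₀, hm₀⟩ := eventually_atTop.1 h
  refine ⟨m₀, fun m hm => ?_⟩
  have h1 := (hm₀ m hm.le).1 0 ⟨le_rfl, o.ax.pos.le⟩ u hu
  rw [add_zero, L.φ_zero] at h1
  rw [dist_eq_norm]
  linarith

/-! ### the function near the homoclinic point -/

/-- the points `e (φ_s z₀) u` tend to `κ` -/
theorem tau_small (z : X) {δ : ℝ} (hδ : 0 < δ) : ∃ s₁ ≥ L.t1, ∀ s ≥ s₁, ∀ u ∈ ball (0 : E2) 3,
    L.τ (L.φ s z) z u ∈ ball (0 : E2) δ := by
  have h1 : Tendsto (fun s : ℝ => H545.cc L 1 * Real.exp (-L.χ * s) * 3) atTop (𝓝 0) := by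
    have h2 : Tendsto (fun s : ℝ => -L.χ * s) atTop atBot :=
      tendsto_id.const_mul_atTop_of_neg (by linarith [L.χ_pos])
    have h3 := ((Real.tendsto_exp_atBot.comp h2).const_mul (H545.cc L 1)).mul_const 3
    simpa using h3
  obtain ⟨s₁, hs₁⟩ := eventually_atTop.1 (h1.eventually (eventually_lt_nhds hδ))
  refine ⟨max s₁ L.t1, le_max_right _ _, fun s hs u hu => ?_⟩
  have hs1 := hs₁ s ((le_max_left _ _).trans hs)
  have ht : L.t1 ≤ s := (le_max_right _ _).trans hs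
  have hd : ∀ v ∈ ball (0 : E2) 3, DifferentiableAt ℝ (L.τ (L.φ s z) z) v := fun v hv =>
    ((H545.tau_step_smooth L ht z).contDiffAt (isOpen_ball.mem_nhds hv)).differentiableAt (by simp)
  have hb : ∀ v ∈ ball (0 : E2) 3, ‖fderiv ℝ (L.τ (L.φ s z) z) v‖
      ≤ H545.cc L 1 * Real.exp (-L.χ * s) := by
    intro v hv
    rw [← norm_iteratedFDeriv_one]
    exact H545.contract_cc L le_rfl ht z hv
  have h2 := (convex_ball (0 : E2) 3).norm_image_sub_le_of_norm_fderiv_le (𝕜 := ℝ) hd hb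
    (mem_ball_self (by norm_num)) hu
  have h0 : L.τ (L.φ s z) z 0 = 0 := by
    refine H545.tau_eq_of L (by simp) ?_
    rw [L.e_zero, L.e_zero, ep_φ']
  rw [h0, sub_zero, sub_zero] at h2
  rw [mem_ball_zero_iff]
  rw [mem_ball_zero_iff] at hu
  refine (h2.trans ?_).trans_lt hs1
  exact mul_le_mul_of_nonneg_left hu.le
    (mul_nonneg (zero_le_one.trans (H545.one_le_cc L 1)) (Real.exp_pos _).le)

theorem two_le_infty : (2 : WithTop ℕ∞) ≤ ∞ :=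
  WithTop.coe_le_coe.2 (le_top : ((2 : ℕ) : ℕ∞) ≤ ⊤)

/-- `f = f(κ) + A Y + O(|Y|²)` -/
theorem f_approx (W : H147.Fwd o x N c) (hk : k • o.pos ≠ o.neg) {f : B → ℝ}
    (hf : L.SmoothOn o.neg f) {A : E2 →L[ℝ] ℝ}
    (hA : A ∘L W.G (y0 o k) = fderiv ℝ (fun u => f (L.e (z0 o k) u)) 0) :
    ∃ s₁ ≥ L.t1, ∃ C : ℝ, 0 ≤ C ∧ ∀ s ≥ s₁, ∀ u ∈ ball (0 : E2) 3,
      |f (L.e (L.φ s (z0 o k)) u) - f (k • o.pos) - A (Yf W k s u)| ≤ C * ‖Yf W k s u‖ ^ 2 := by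
  set ζ : B := k⁻¹ • o.neg with hζ
  have hem := em_y0 (o := o) hk
  have hF : ContDiffAt ℝ 2 (fun v => W.F ζ (L.e (y0 o k) v)) 0 := by
    have h1 := (W.smooth ζ (zeta_ne hk)).contDiffAt
      (isOpen_ball.mem_nhds (mem_ball_self (x := (0 : E2)) one_pos))
    exact h1.of_le two_le_infty
  have hF0 : W.F ζ (L.e (y0 o k) 0) = 0 := by
    rw [L.e_zero, ep_y0 hk]
    exact W.base ζ (zeta_ne hk)
  have hdet : (fderiv ℝ (fun v => W.F ζ (L.e (y0 o k) v)) 0).det ≠ 0 := W.deriv ζ (zeta_ne hk)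
  have hg : ContDiffAt ℝ 2 (fun u => f (L.e (z0 o k) u)) 0 := by
    have h1 := (hf (z0 o k) (em_z0 hk)).contDiffAt
      (isOpen_ball.mem_nhds (mem_ball_self (x := (0 : E2)) (by norm_num : (0 : ℝ) < 3)))
    exact h1.of_le two_le_infty
  have hA' : A ∘L fderiv ℝ (fun v => W.F ζ (L.e (y0 o k) v)) 0
      = fderiv ℝ (fun u => f (L.e (z0 o k) u)) 0 := by
    rw [← hA]
    unfold H147.Fwd.G
    rw [hem]
  obtain ⟨δ, hδ, C, hC, hq⟩ := quad hg hF hF0 hdet hA'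
  obtain ⟨s₁, hs₁, hs⟩ := tau_small (L := L) (z0 o k) hδ
  refine ⟨s₁, hs₁, C, hC, fun s hs' u hu => ?_⟩
  have h1 := hs s hs' u hu
  have ht : L.t1 ≤ s := hs₁.le.trans hs'
  set v := L.τ (L.φ s (z0 o k)) (z0 o k) u with hv
  have hv1 : v ∈ ball (0 : E2) 1 := H545.tau_step_mem L ht _ (ball_subset_closedBall hu)
  have hev : L.e (z0 o k) v = L.e (L.φ s (z0 o k)) u :=
    H545.e_tau_step L ht _ (ball_subset_closedBall hu)
  have h2 := hq v h1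
  have hv3 : v ∈ closedBall (0 : E2) 3 := ball_subset_closedBall (ball_subset_ball (by norm_num) hv1)
  have e1 : W.F ζ (L.e (y0 o k) v) = Yf W k s u := by
    unfold Yf
    rw [← hζ]
    congr 1
    rw [eq_inv_smul_iff, ← L.e_smul _ _ _ hv3, smul_y0 hk, hev]
  have e2 : L.e (z0 o k) 0 = k • o.pos := by rw [L.e_zero, ep_z0 hk]
  simp only [hev, e1, e2] at h2
  exact h2

end Vale.Agent.P207.N3.H905
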