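import Vale.Agent.P207.N3.H905.RegB

/-!
# P207, line N3: REG, part C: the limit of a rescaled function at a homoclinic point

`Resc N A P μ`: if `N^m Y_m → v` then `μ^m A Y_m → P v`, `|μ|^m |Y_m|² → 0`, with uniform bounds.
`dir_limit`: if `E^s(df, ·)` is smooth along `U_{β⁻}` and `f = f(κ) + A x^κ + O(2)` at `κ = k β⁺`,
then `E^s(d(P ∘ x), ·)` is `C^{k'}` near `β⁺` (1.3, limit rule).
-/

open Set Filter Topology Metric MeasureTheory
open scoped ContDiff

set_option linter.unusedSectionVars false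
set_option maxSynthPendingDepth 3

noncomputable section

namespace Vale.Agent.P207.N3.H905

/-- the linear form `A` rescaled by `μ^m` along `N^{-m}` has the limit `P` -/
def Resc (N : E2 → E2) (A P : E2 →L[ℝ] ℝ) (μ : ℝ) : Prop :=
  (∀ R : ℝ, ∃ C : ℝ, ∀ (m : ℕ) (Y : E2), ‖N^[m] Y‖ ≤ R →
    |μ| ^ m * |A Y| ≤ C ∧ |μ| ^ m * ‖Y‖ ^ 2 ≤ C) ∧
  ∀ (Y : ℕ → E2) (v : E2), Tendsto (fun m => N^[m] (Y m)) atTop (𝓝 v) →
    Tendsto (fun m => μ ^ m * A (Y m)) atTop (𝓝 (P v)) ∧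
    Tendsto (fun m => |μ| ^ m * ‖Y m‖ ^ 2) atTop (𝓝 0)

variable {Γ X B : Type} [Group Γ] [MetricSpace X] [ProperSpace X] [MulAction Γ X]
  [IsIsometricSMul Γ X] [TopologicalSpace B] [CompactSpace B] [T2Space B] [MulAction Γ B]
  [ContinuousConstSMul Γ B] {L : Leaf Γ X B} {o : Orb L} {x : B → E2} {N : E2 → E2} {c : ℝ}
  {k : Γ}

/-- the upper bound of `f - f(κ)` along the orbit of `κ` -/
theorem upper (W : H147.Fwd o x N c) (hk : k • o.pos ≠ o.neg) (hx : L.SmoothOn o.neg x)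
    {f : B → ℝ} (hf : L.SmoothOn o.neg f) {A P : E2 →L[ℝ] ℝ}
    (hA : A ∘L W.G (y0 o k) = fderiv ℝ (fun u => f (L.e (z0 o k) u)) 0) {μ : ℝ}
    (hP : Resc N A P μ) {Λ : ℝ} (hΛ : 0 ≤ Λ) (hμ : |μ| = Real.exp (Λ * o.l)) :
    ∃ D : ℝ, 0 ≤ D ∧ ∀ s ≥ L.t1, ∀ u ∈ ball (0 : E2) 2,
      |f (L.e (L.φ s (z0 o k)) u) - f (k • o.pos)| ≤ D * Real.exp (-Λ * s) := by
  have hl := o.ax.pos
  obtain ⟨s₁, hs₁, C, hC, happ⟩ := f_approx W hk hf hA
  obtain ⟨R, hR⟩ := Y_bdd W hk hx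
  obtain ⟨C', hC'⟩ := hP.1 R
  -- large times
  have hlarge : Tendsto (fun m : ℕ => (m : ℝ) * o.l) atTop atTop :=
    tendsto_natCast_atTop_atTop.atTop_mul_const hl
  obtain ⟨m₀, hm₀⟩ := eventually_atTop.1 (hR.and (hlarge.eventually_ge_atTop s₁))
  have hC'0 : 0 ≤ C' := by
    obtain ⟨h1, h2⟩ := hm₀ m₀ le_rfl
    have h3 := (hC' m₀ _ (h1 0 ⟨le_rfl, hl.le⟩ 0 (mem_ball_self (by norm_num)))).1
    exact le_trans (by positivity) h3
  have big : ∀ s ≥ (m₀ : ℝ) * o.l, ∀ u ∈ ball (0 : E2) 2,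
      |f (L.e (L.φ s (z0 o k)) u) - f (k • o.pos)|
        ≤ (C' + C * C') * Real.exp (Λ * o.l) * Real.exp (-Λ * s) := by
    intro s hs u hu
    have hs0 : 0 ≤ s := le_trans (by positivity) hs
    set m : ℕ := ⌊s / o.l⌋₊ with hm
    have hm1 : (m : ℝ) * o.l ≤ s := by
      have := Nat.floor_le (div_nonneg hs0 hl.le)
      rw [← hm] at this
      rwa [le_div_iff₀ hl] at this
    have hm2 : s < ((m : ℝ) + 1) * o.l := by
      have := Nat.lt_floor_add_one (s / o.l)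
      rw [← hm] at this
      rwa [div_lt_iff₀ hl] at this
    have hmm : m₀ ≤ m := by
      rw [hm]
      exact Nat.le_floor (by rwa [le_div_iff₀ hl])
    obtain ⟨h1, h2⟩ := hm₀ m hmm
    set r : ℝ := s - m * o.l with hr
    have hrm : r ∈ Icc (0 : ℝ) o.l := ⟨by linarith, by nlinarith⟩
    set u' : E2 := (o.a ^ m).symm u with hu'
    have hu'3 : u' ∈ ball (0 : E2) 3 := by
      rw [mem_ball_zero_iff] at hu ⊢
      rw [hu', LinearIsometryEquiv.norm_map]
      linarith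
    have h3 := h1 r hrm u' hu'3
    have e1 : (o.a ^ m) u' = u := (o.a ^ m).apply_symm_apply u
    have e2 : (m : ℝ) * o.l + r = s := by rw [hr]; ring
    rw [e1, e2] at h3
    obtain ⟨h4, h5⟩ := hC' m _ h3
    have h6 := happ s (h2.trans hm1) u (ball_subset_ball (by norm_num) hu)
    have hμm : |μ| ^ m = Real.exp (Λ * (m * o.l)) := by
      rw [hμ, ← Real.exp_nat_mul]
      congr 1
      ring
    have hpos : 0 < |μ| ^ m := by rw [hμm]; exact Real.exp_pos _
    have h7 : |f (L.e (L.φ s (z0 o k)) u) - f (k • o.pos)|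
        ≤ |A (Yf W k s u)| + C * ‖Yf W k s u‖ ^ 2 := by
      have := abs_add_le (f (L.e (L.φ s (z0 o k)) u) - f (k • o.pos) - A (Yf W k s u))
        (A (Yf W k s u))
      rw [sub_add_cancel] at this
      linarith
    have h8 : |μ| ^ m * |f (L.e (L.φ s (z0 o k)) u) - f (k • o.pos)| ≤ C' + C * C' := by
      calc |μ| ^ m * |f (L.e (L.φ s (z0 o k)) u) - f (k • o.pos)|
          ≤ |μ| ^ m * (|A (Yf W k s u)| + C * ‖Yf W k s u‖ ^ 2) :=
            mul_le_mul_of_nonneg_left h7 hpos.le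
        _ = |μ| ^ m * |A (Yf W k s u)| + C * (|μ| ^ m * ‖Yf W k s u‖ ^ 2) := by ring
        _ ≤ C' + C * C' := add_le_add h4 (mul_le_mul_of_nonneg_left h5 hC)
    have h9 : |f (L.e (L.φ s (z0 o k)) u) - f (k • o.pos)|
        ≤ (C' + C * C') * Real.exp (-(Λ * (m * o.l))) := by
      rw [hμm] at h8
      rw [Real.exp_neg, ← div_eq_mul_inv, le_div_iff₀ (Real.exp_pos _), mul_comm]
      exact h8
    refine h9.trans ?_
    rw [mul_assoc, ← Real.exp_add]
    refine mul_le_mul_of_nonneg_left ?_ (by positivity)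
    rw [Real.exp_le_exp]
    nlinarith
  -- small times
  have hcont : ContinuousOn (fun u => f (L.e (z0 o k) u) - f (k • o.pos)) (closedBall 0 1) := by
    have h1 := (hf (z0 o k) (em_z0 hk)).continuousOn.mono
      (closedBall_subset_ball (by norm_num : (1 : ℝ) < 3))
    exact h1.sub continuousOn_const
  obtain ⟨K₀, hK₀⟩ := (isCompact_closedBall (0 : E2) 1).exists_bound_of_continuousOn hcont
  have hK₀0 : 0 ≤ K₀ := (norm_nonneg _).trans (hK₀ 0 (by simp))
  have small : ∀ s ≥ L.t1, ∀ u ∈ ball (0 : E2) 2,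
      |f (L.e (L.φ s (z0 o k)) u) - f (k • o.pos)| ≤ K₀ := by
    intro s hs u hu
    have hu3 : u ∈ closedBall (0 : E2) 3 :=
      ball_subset_closedBall (ball_subset_ball (by norm_num) hu)
    have h1 := H545.tau_step_mem L hs (z0 o k) hu3
    have h2 := hK₀ _ (ball_subset_closedBall h1)
    rw [H545.e_tau_step L hs (z0 o k) hu3] at h2
    exact h2
  refine ⟨(C' + C * C') * Real.exp (Λ * o.l) + K₀ * Real.exp (Λ * (m₀ * o.l)), by positivity,
    fun s hs u hu => ?_⟩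
  rcases le_total ((m₀ : ℝ) * o.l) s with h | h
  · refine (big s h u hu).trans ?_
    refine mul_le_mul_of_nonneg_right ?_ (Real.exp_pos _).le
    have : 0 ≤ K₀ * Real.exp (Λ * (m₀ * o.l)) := by positivity
    linarith
  · refine (small s hs u hu).trans ?_
    have h1 : 1 ≤ Real.exp (Λ * (m₀ * o.l)) * Real.exp (-Λ * s) := by
      rw [← Real.exp_add]
      refine Real.one_le_exp ?_
      nlinarith
    have h2 : 0 ≤ (C' + C * C') * Real.exp (Λ * o.l) * Real.exp (-Λ * s) := by positivity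
    calc K₀ = K₀ * 1 := (mul_one _).symm
      _ ≤ K₀ * (Real.exp (Λ * (m₀ * o.l)) * Real.exp (-Λ * s)) :=
          mul_le_mul_of_nonneg_left h1 hK₀0
      _ ≤ _ := by nlinarith

/-- the frames `(k β^m)⁻¹ φ_{m l} (rot a^m z₀)` tend to `x₀` -/
theorem frames_tendsto (hk : k • o.pos ≠ o.neg) :
    Tendsto (fun m : ℕ => (k * o.β ^ m)⁻¹ • L.φ (m * o.l) (L.rot (o.a ^ m) (z0 o k))) atTop
      (𝓝 o.x) := by
  have h1 : Tendsto (fun m : ℕ => (o.β ^ m)⁻¹ • k⁻¹ • o.neg) atTop (𝓝 (L.em o.x)) := by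
    intro V hV
    have := H147.Ax.south o.ax (isCompact_singleton (x := k⁻¹ • o.neg))
      (by simpa using fun h => zeta_ne hk h.symm) hV
    exact this.mono fun m hm => hm _ rfl
  have h2 := L.hol_cont (L.em o.x, o.x) (L.em_ne_ep o.x)
  rw [ContinuousWithinAt, L.hol_self o.x] at h2
  have h3 : Tendsto (fun m : ℕ => L.hol ((o.β ^ m)⁻¹ • k⁻¹ • o.neg) o.x) atTop (𝓝 o.x) := by
    refine h2.comp (tendsto_nhdsWithin_iff.mpr ⟨h1.prodMk_nhds tendsto_const_nhds, ?_⟩)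
    refine Eventually.of_forall fun m => ?_
    have := pow_inv_zeta_ne (o := o) hk m 0
    rwa [L.φ_zero] at this
  refine h3.congr fun m => ?_
  have h4 := frame_eq (o := o) hk m 0
  rw [L.φ_zero, add_zero] at h4
  rw [← h4, inv_smul_smul]

/-- **the limit of the rescaled function** -/
theorem dir_limit (T : Tens L) (W : H147.Fwd o x N c) (hk : k • o.pos ≠ o.neg)
    (hx : L.SmoothOn o.neg x) {f : B → ℝ} (hf : SmDir T o.neg f) {A P : E2 →L[ℝ] ℝ}
    (hA : A ∘L W.G (y0 o k) = fderiv ℝ (fun u => f (L.e (z0 o k) u)) 0) {μ : ℝ}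
    (hP : Resc N A P μ) {Λ : ℝ} (hΛ : 0 ≤ Λ) (hμ : |μ| = Real.exp (Λ * o.l)) (k' : ℕ) :
    ContDiffOn ℝ k' (fun u => P (x (L.e o.x u))) (ball 0 2) ∧
      ContDiffOn ℝ k' (fun u => T.N o.x u (gradient (fun u => P (x (L.e o.x u))) u))
        (ball 0 2) := by
  have hl := o.ax.pos
  have hfs : L.SmoothOn o.neg f := H828.smoothOn_of_smDir hf
  obtain ⟨D, hD, hup⟩ := upper W hk hx hfs hA hP hΛ hμ
  obtain ⟨s₁, hs₁, C, hC, happ⟩ := f_approx W hk hfs hA
  obtain ⟨K, hK⟩ := H545.dir_bdd T hΛ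
  set q := max (max k' 1) K with hq
  obtain ⟨Cd, hCd1, hCd⟩ := hK (q + 1) (by omega)
  obtain ⟨hd1, hd2⟩ := hf (z0 o k) (em_z0 hk)
  obtain ⟨C1, hC10, hCk1⟩ := H545.exists_CkB_of_contDiffOn (k := q + 1 + 1) (r := 1) (R := 3)
    (by norm_num) (hd1.of_le (WithTop.coe_le_coe.2 (le_top : ((q + 1 + 1 : ℕ) : ℕ∞) ≤ ⊤)))
  obtain ⟨C2, hC20, hCk2⟩ := H545.exists_CkB_of_contDiffOn (k := q + 1) (r := 1) (R := 3)
    (by norm_num) (hd2.of_le (WithTop.coe_le_coe.2 (le_top : ((q + 1 : ℕ) : ℕ∞) ≤ ⊤)))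
  set C₀ : ℝ := max C1 C2 with hC₀
  set D' : ℝ := max C₀ D with hD'
  have hC₀0 : 0 ≤ C₀ := hC10.trans (le_max_left _ _)
  have hD'0 : 0 ≤ D' := hC₀0.trans (le_max_left _ _)
  -- a large time
  have hlarge : Tendsto (fun m : ℕ => (m : ℝ) * o.l) atTop atTop :=
    tendsto_natCast_atTop_atTop.atTop_mul_const hl
  obtain ⟨m₁, hm₁⟩ := eventually_atTop.1 (hlarge.eventually_ge_atTop (max s₁ L.t1))
  set zz : ℕ → X := fun m => L.φ (m * o.l) (L.rot (o.a ^ m) (z0 o k)) with hzz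
  have hμm : ∀ m : ℕ, |μ| ^ m = Real.exp (Λ * (m * o.l)) := by
    intro m
    rw [hμ, ← Real.exp_nat_mul]
    congr 1
    ring
  have hem : ∀ m, L.em (zz m) = o.neg := fun m => by
    rw [hzz]
    simp only
    rw [L.em_φ, L.em_rot, em_z0 hk]
  -- the bounds
  have key : ∀ m ≥ m₁, H545.CkB (q + 1 + 1) 2 (Cd * (D' * Real.exp (-Λ * (m * o.l))))
      (fun u => f (L.e (zz m) u) - f (k • o.pos)) ∧
      H545.CkB (q + 1) 2 (Cd * (D' * Real.exp (-Λ * (m * o.l)))) (H545.Wf T f (zz m)) := by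
    intro m hm
    have ht : L.t1 ≤ m * o.l := (le_max_right _ _).trans (hm₁ m hm)
    refine hCd f (f (k • o.pos)) (L.rot (o.a ^ m) (z0 o k)) C₀ (m * o.l)
      (D' * Real.exp (-Λ * (m * o.l))) hC₀0 (by positivity) ht ?_ ?_ ?_ ?_
    · refine fun_rot_CkB (by norm_num) ?_ _
      exact ⟨hCk1.1, fun j hj u hu => (hCk1.2 j hj u hu).trans (le_max_left _ _)⟩
    · refine Wf_rot_CkB T (by norm_num) ?_ ?_ _
      · exact hd1.of_le (WithTop.coe_le_coe.2 (le_top : ((1 : ℕ) : ℕ∞) ≤ ⊤))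
      · exact ⟨hCk2.1, fun j hj u hu => (hCk2.2 j hj u hu).trans (le_max_right _ _)⟩
    · rw [mul_assoc, ← Real.exp_add]
      have : -Λ * (m * o.l) + Λ * (m * o.l) = 0 := by ring
      rw [this, Real.exp_zero, mul_one]
      exact le_max_left _ _
    · intro s hs u hu
      have hu3 : u ∈ closedBall (0 : E2) 3 :=
        ball_subset_closedBall (ball_subset_ball (by norm_num) hu)
      have hau : (o.a ^ m) u ∈ ball (0 : E2) 2 := by
        rw [mem_ball_zero_iff] at hu ⊢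
        rwa [LinearIsometryEquiv.norm_map]
      have h1 := hup s hs.1 _ hau
      rw [← L.rot_φ, L.e_rot _ _ _ hu3, Real.norm_eq_abs]
      refine h1.trans ?_
      rw [mul_assoc, ← Real.exp_add]
      have : -Λ * (m * o.l) + Λ * (m * o.l - s) = -Λ * s := by ring
      rw [this]
      exact mul_le_mul_of_nonneg_right (le_max_right _ _) (Real.exp_pos _).le
  -- the rescaled functions
  set F : ℕ → E2 → ℝ := fun n u => μ ^ (n + m₁) * (f (L.e (zz (n + m₁)) u) - f (k • o.pos))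
    with hF
  have hscal : ∀ {V : Type} [NormedAddCommGroup V] [NormedSpace ℝ V] {g : E2 → V} {j m : ℕ},
      H545.CkB j 2 (Cd * (D' * Real.exp (-Λ * (m * o.l)))) g →
      H545.CkB j 2 (Cd * D') (fun u => μ ^ m • g u) := by
    intro V _ _ g j m hg
    refine ⟨ContDiffOn.const_smul _ hg.1, fun i hi u hu => ?_⟩
    have h7 : ContDiffAt ℝ i g u :=
      (hg.1.contDiffAt (isOpen_ball.mem_nhds hu)).of_le (by exact_mod_cast hi)
    rw [iteratedFDeriv_const_smul_apply' h7, norm_smul, norm_pow, Real.norm_eq_abs, hμm]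
    have h8 := hg.2 i hi u hu
    calc Real.exp (Λ * (m * o.l)) * ‖iteratedFDeriv ℝ i g u‖
        ≤ Real.exp (Λ * (m * o.l)) * (Cd * (D' * Real.exp (-Λ * (m * o.l)))) := by gcongr
      _ = Cd * D' * (Real.exp (Λ * (m * o.l)) * Real.exp (-Λ * (m * o.l))) := by ring
      _ = Cd * D' := by
          rw [← Real.exp_add]
          have : Λ * (m * o.l) + -Λ * (m * o.l) = 0 := by ring
          rw [this, Real.exp_zero, mul_one]
  have hFb : ∀ n, H545.CkB (q + 1) 2 (Cd * D') (F n) := fun n =>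
    (hscal ((key (n + m₁) (by omega)).1)).mono (by omega) le_rfl le_rfl
  have hWb : ∀ n, H545.CkB (q + 1) 2 (Cd * D')
      (fun u => T.N (zz (n + m₁)) u (gradient (F n) u)) := by
    intro n
    refine H545.CkB_congr (hscal ((key (n + m₁) (by omega)).2)) fun u hu => ?_
    have hu3 : u ∈ ball (0 : E2) 3 := ball_subset_ball (by norm_num) hu
    have hdf : DifferentiableAt ℝ (fun v => f (L.e (zz (n + m₁)) v)) u :=
      ((hfs _ (hem _)).contDiffAt (isOpen_ball.mem_nhds hu3)).differentiableAt (by simp)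
    have h2 : gradient (F n) u = μ ^ (n + m₁) • H545.grd L f (zz (n + m₁)) u := by
      have h4 := ((hdf.hasFDerivAt.sub_const (f (k • o.pos))).const_mul (μ ^ (n + m₁)))
      have h5 : fderiv ℝ (F n) u = μ ^ (n + m₁) • fderiv ℝ (fun v => f (L.e (zz (n + m₁)) v)) u :=
        h4.fderiv
      unfold H545.grd gradient
      rw [h5, map_smulₛₗ]
      simp
    rw [h2, map_smul]
    rfl
  have hGl : ∀ u ∈ ball (0 : E2) 2, Tendsto (fun n => F n u) atTop (𝓝 (P (x (L.e o.x u)))) := by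
    intro u hu
    have hu3 : u ∈ ball (0 : E2) 3 := ball_subset_ball (by norm_num) hu
    have hY := Y_tendsto W hk hu3
    obtain ⟨h1, h2⟩ := hP.2 _ _ hY
    have h3 : Tendsto (fun m : ℕ => μ ^ m * (f (L.e (zz m) u) - f (k • o.pos))) atTop
        (𝓝 (P (x (L.e o.x u)))) := by
      have h4 : Tendsto (fun m : ℕ => μ ^ m * (f (L.e (zz m) u) - f (k • o.pos))
          - μ ^ m * A (Yf W k (m * o.l) ((o.a ^ m) u))) atTop (𝓝 0) := by
        have h5 := h2.const_mul C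
        rw [mul_zero] at h5
        refine squeeze_zero_norm' ?_ h5
        filter_upwards [eventually_ge_atTop m₁] with m hm
        have h6 := happ (m * o.l) ((le_max_left _ _).trans (hm₁ m hm)) ((o.a ^ m) u) (by
          rw [mem_ball_zero_iff] at hu3 ⊢
          rwa [LinearIsometryEquiv.norm_map])
        have e1 : L.e (zz m) u = L.e (L.φ (m * o.l) (z0 o k)) ((o.a ^ m) u) := by
          rw [hzz]
          simp only
          rw [← L.rot_φ, L.e_rot _ _ _ (ball_subset_closedBall hu3)]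
        rw [e1, ← mul_sub, norm_mul, norm_pow, Real.norm_eq_abs, Real.norm_eq_abs]
        calc |μ| ^ m * |f (L.e (L.φ (m * o.l) (z0 o k)) ((o.a ^ m) u)) - f (k • o.pos)
              - A (Yf W k (m * o.l) ((o.a ^ m) u))|
            ≤ |μ| ^ m * (C * ‖Yf W k (m * o.l) ((o.a ^ m) u)‖ ^ 2) :=
              mul_le_mul_of_nonneg_left h6 (by positivity)
          _ = C * (|μ| ^ m * ‖Yf W k (m * o.l) ((o.a ^ m) u)‖ ^ 2) := by ring
      have h5 := h4.add h1
      rw [zero_add] at h5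
      refine h5.congr fun m => ?_
      ring
    exact h3.comp (tendsto_add_atTop_nat m₁)
  have hfr : Tendsto (fun n : ℕ => (k * o.β ^ (n + m₁))⁻¹ • zz (n + m₁)) atTop (𝓝 o.x) :=
    (frames_tendsto (o := o) hk).comp (tendsto_add_atTop_nat m₁)
  have h := H545.lim_rule T hfr (by omega : 1 ≤ q) hFb hGl hWb
  exact ⟨h.1.1.of_le (by exact_mod_cast (by omega : k' ≤ q)),
    h.2.1.1.of_le (by exact_mod_cast (by omega : k' ≤ q))⟩

end Vale.Agent.P207.N3.H905
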