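import Vale.Agent.P207.N3.H905.RegC
import Vale.Agent.P207.N3.H310.Fw
import Vale.Agent.P207.N3.H969.OfLin

/-!
# P207, line N3: REG: regularity of the homoclinic points of the orbits of type S, C, F (r < 2)

* `resc_tri` : the instances of `Resc` for `N = tri μ₁ μ₂ 0 j`;
* `reg_core` : (1.3*) for `f` and the limit of the rescaled `f` at `κ`;
* `reg_S`, `reg_C` : `lin 1 0 ∘ B_κ = c • lin 1 0`, resp. `lin 0 1 ∘ B_κ = c • lin 0 1`, `c ≠ 0`;
* `reg_F` : `(B_κ)₁₁ ≠ 0` for type F with `λ₁ < 2 λ₂`.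
-/

open Set Filter Topology Metric MeasureTheory
open scoped ContDiff

set_option linter.unusedSectionVars false
set_option maxSynthPendingDepth 3

noncomputable section

namespace Vale.Agent.P207.N3.H905

open H790 (NF)

/-! ### the normal form without resonance -/

theorem iter_fn0 (μ₁ μ₂ : ℝ) (j m : ℕ) (x : E2) :
    (((NF.tri μ₁ μ₂ 0 j).fn)^[m] x) 0 = μ₁ ^ m * x 0 ∧
      (((NF.tri μ₁ μ₂ 0 j).fn)^[m] x) 1 = μ₂ ^ m * x 1 := by
  induction m with
  | zero => simp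
  | succ m ih =>
    rw [Function.iterate_succ_apply']
    refine ⟨?_, ?_⟩
    · rw [NF.fn_tri_zero, ih.1]
      ring
    · rw [NF.fn_tri_one, ih.2]
      ring

theorem norm_sq_eq (v : E2) : ‖v‖ ^ 2 = v 0 ^ 2 + v 1 ^ 2 := by
  rw [EuclideanSpace.norm_sq_eq, Fin.sum_univ_two, Real.norm_eq_abs, Real.norm_eq_abs, sq_abs,
    sq_abs]

/-- the rescaled limits for `N = diag (μ₁, μ₂)` -/
theorem resc_tri {μ₁ μ₂ μ α β α' β' : ℝ} {j : ℕ} (h2 : 1 < |μ₂|) (h12 : |μ₂| ≤ |μ₁|)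
    (hμ₁ : |μ| ≤ |μ₁|) (hμ₂ : |μ| < |μ₂| ^ 2) (hβ : β ≠ 0 → |μ| ≤ |μ₂|)
    (hα' : Tendsto (fun m : ℕ => α * (μ / μ₁) ^ m) atTop (𝓝 α'))
    (hβ' : Tendsto (fun m : ℕ => β * (μ / μ₂) ^ m) atTop (𝓝 β')) :
    Resc (NF.tri μ₁ μ₂ 0 j).fn (H969.lin α β) (H969.lin α' β') μ := by
  have h1 : 1 < |μ₁| := h2.trans_le h12
  have hp1 : 0 < |μ₁| := zero_lt_one.trans h1
  have hp2 : 0 < |μ₂| := zero_lt_one.trans h2
  have hn1 : μ₁ ≠ 0 := abs_pos.1 hp1
  have hn2 : μ₂ ≠ 0 := abs_pos.1 hp2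
  refine ⟨fun R => ?_, fun Y v hY => ?_⟩
  · refine ⟨(|α| + |β|) * R + 2 * R ^ 2, fun m Y hR => ?_⟩
    have hR0 : 0 ≤ R := (norm_nonneg _).trans hR
    obtain ⟨e0, e1⟩ := iter_fn0 μ₁ μ₂ j m Y
    have b0 : |μ₁| ^ m * |Y 0| ≤ R := by
      have h3 := PiLp.norm_apply_le (((NF.tri μ₁ μ₂ 0 j).fn)^[m] Y) 0
      rw [e0, Real.norm_eq_abs, abs_mul, abs_pow] at h3
      exact h3.trans hR
    have b1 : |μ₂| ^ m * |Y 1| ≤ R := by
      have h3 := PiLp.norm_apply_le (((NF.tri μ₁ μ₂ 0 j).fn)^[m] Y) 1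
      rw [e1, Real.norm_eq_abs, abs_mul, abs_pow] at h3
      exact h3.trans hR
    have hμm : |μ| ^ m ≤ |μ₁| ^ m := pow_le_pow_left₀ (abs_nonneg _) hμ₁ m
    constructor
    · rw [H969.lin_apply]
      have c0 : |μ| ^ m * |Y 0| ≤ R :=
        (mul_le_mul_of_nonneg_right hμm (abs_nonneg _)).trans b0
      have c1 : |β| * (|μ| ^ m * |Y 1|) ≤ |β| * R := by
        by_cases hβ0 : β = 0
        · simp [hβ0]
        · refine mul_le_mul_of_nonneg_left ?_ (abs_nonneg _)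
          exact (mul_le_mul_of_nonneg_right (pow_le_pow_left₀ (abs_nonneg _) (hβ hβ0) m)
            (abs_nonneg _)).trans b1
      calc |μ| ^ m * |α * Y 0 + β * Y 1| ≤ |μ| ^ m * (|α| * |Y 0| + |β| * |Y 1|) := by
            refine mul_le_mul_of_nonneg_left ?_ (by positivity)
            have := abs_add_le (α * Y 0) (β * Y 1)
            rwa [abs_mul, abs_mul] at this
        _ = |α| * (|μ| ^ m * |Y 0|) + |β| * (|μ| ^ m * |Y 1|) := by ring
        _ ≤ |α| * R + |β| * R := add_le_add (mul_le_mul_of_nonneg_left c0 (abs_nonneg _)) c1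
        _ ≤ (|α| + |β|) * R + 2 * R ^ 2 := by nlinarith [sq_nonneg R]
    · rw [norm_sq_eq]
      have c0 : |μ| ^ m * Y 0 ^ 2 ≤ R ^ 2 := by
        have g1 : 1 ≤ |μ₁| ^ m := one_le_pow₀ h1.le
        calc |μ| ^ m * Y 0 ^ 2 ≤ |μ₁| ^ m * Y 0 ^ 2 :=
              mul_le_mul_of_nonneg_right hμm (sq_nonneg _)
          _ = |μ₁| ^ m * |Y 0| ^ 2 * 1 := by rw [sq_abs, mul_one]
          _ ≤ |μ₁| ^ m * |Y 0| ^ 2 * |μ₁| ^ m := mul_le_mul_of_nonneg_left g1 (by positivity)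
          _ = (|μ₁| ^ m * |Y 0|) ^ 2 := by ring
          _ ≤ R ^ 2 := pow_le_pow_left₀ (by positivity) b0 2
      have c1 : |μ| ^ m * Y 1 ^ 2 ≤ R ^ 2 := by
        calc |μ| ^ m * Y 1 ^ 2 ≤ (|μ₂| ^ 2) ^ m * Y 1 ^ 2 :=
              mul_le_mul_of_nonneg_right (pow_le_pow_left₀ (abs_nonneg _) hμ₂.le m)
                (sq_nonneg _)
          _ = (|μ₂| ^ m * |Y 1|) ^ 2 := by
              rw [mul_pow (|μ₂| ^ m), sq_abs (Y 1)]
              ring
          _ ≤ R ^ 2 := pow_le_pow_left₀ (by positivity) b1 2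
      have c2 : 0 ≤ (|α| + |β|) * R := by positivity
      calc |μ| ^ m * (Y 0 ^ 2 + Y 1 ^ 2) = |μ| ^ m * Y 0 ^ 2 + |μ| ^ m * Y 1 ^ 2 := by ring
        _ ≤ (|α| + |β|) * R + 2 * R ^ 2 := by linarith
  · have hY0 : Tendsto (fun m => μ₁ ^ m * Y m 0) atTop (𝓝 (v 0)) := by
      have h3 := ((EuclideanSpace.proj (𝕜 := ℝ) (0 : Fin 2)).continuous.tendsto v).comp hY
      refine h3.congr fun m => ?_
      exact (iter_fn0 μ₁ μ₂ j m (Y m)).1
    have hY1 : Tendsto (fun m => μ₂ ^ m * Y m 1) atTop (𝓝 (v 1)) := by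
      have h3 := ((EuclideanSpace.proj (𝕜 := ℝ) (1 : Fin 2)).continuous.tendsto v).comp hY
      refine h3.congr fun m => ?_
      exact (iter_fn0 μ₁ μ₂ j m (Y m)).2
    constructor
    · have h3 := (hα'.mul hY0).add (hβ'.mul hY1)
      rw [H969.lin_apply]
      refine h3.congr fun m => ?_
      have := pow_ne_zero m hn1
      have := pow_ne_zero m hn2
      rw [H969.lin_apply, div_pow, div_pow]
      field_simp
    · have q0 : Tendsto (fun m : ℕ => (|μ| / |μ₁| ^ 2) ^ m) atTop (𝓝 0) := by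
        refine tendsto_pow_atTop_nhds_zero_of_lt_one (by positivity) ?_
        rw [div_lt_one (by positivity)]
        refine hμ₂.trans_le ?_
        exact pow_le_pow_left₀ hp2.le h12 2
      have q1 : Tendsto (fun m : ℕ => (|μ| / |μ₂| ^ 2) ^ m) atTop (𝓝 0) := by
        refine tendsto_pow_atTop_nhds_zero_of_lt_one (by positivity) ?_
        rwa [div_lt_one (by positivity)]
      have h3 := (q0.mul (hY0.pow 2)).add (q1.mul (hY1.pow 2))
      rw [zero_mul, zero_mul, add_zero] at h3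
      refine h3.congr fun m => ?_
      have g1 : (|μ₁| ^ 2) ^ m = (μ₁ ^ m) ^ 2 := by rw [sq_abs, ← pow_mul, ← pow_mul, mul_comm]
      have g2 : (|μ₂| ^ 2) ^ m = (μ₂ ^ m) ^ 2 := by rw [sq_abs, ← pow_mul, ← pow_mul, mul_comm]
      have := pow_ne_zero m hn1
      have := pow_ne_zero m hn2
      rw [norm_sq_eq, div_pow, div_pow, g1, g2]
      field_simp

/-! ### (1.3*) for the limit -/

variable {Γ X B : Type} [Group Γ] [MetricSpace X] [ProperSpace X] [MulAction Γ X]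
  [IsIsometricSMul Γ X] [TopologicalSpace B] [CompactSpace B] [T2Space B] [MulAction Γ B]
  [ContinuousConstSMul Γ B] {L : Leaf Γ X B} {o : Orb L} {c : ℝ} {k : Γ}
  [MeasurableSpace B] [BorelSpace B] {A : Area L} {T : Tens L} {k₀ : ℕ}

/-- the coordinate `i` as a linear form -/
def pr (i : Fin 2) : E2 →L[ℝ] ℝ := EuclideanSpace.proj i

theorem pr_apply (i : Fin 2) (v : E2) : pr i v = v i := rfl

/-- `D(f ∘ e z)(0) = pr i ∘ D(x ∘ e z)(0)` -/
theorem fderiv_f (t : LevForm A T k₀ o) {z : X} (hz : L.em z = o.neg) :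
    fderiv ℝ (fun u => t.f (L.e z u)) 0
      = pr t.i ∘L fderiv ℝ (fun u => t.n.x (L.e z u)) 0 := by
  have h1 := (H310.nor_diff t.n hz (u := 0) (by simp)).hasFDerivAt
  exact ((pr t.i).hasFDerivAt.comp (0 : E2) h1).fderiv

theorem reg_core (hR : Rough T k₀) (t : LevForm A T k₀ o) (W : H147.Fwd o t.n.x t.n.N.fn c)
    (hk : k • o.pos ≠ o.neg) {A' P : E2 →L[ℝ] ℝ}
    (hA : A' ∘L W.G (y0 o k) = fderiv ℝ (fun u => t.f (L.e (z0 o k) u)) 0) {μ : ℝ}
    (hP : Resc t.n.N.fn A' P μ) (hμ1 : 1 ≤ |μ|) :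
    ∀ v w : E2, P v * w t.i = P w * v t.i := by
  have hl := o.ax.pos
  have hμ : |μ| = Real.exp (Real.log |μ| / o.l * o.l) := by
    rw [div_mul_cancel₀ _ hl.ne', Real.exp_log (zero_lt_one.trans_le hμ1)]
  have hΛ : 0 ≤ Real.log |μ| / o.l := div_nonneg (Real.log_nonneg hμ1) hl.le
  have hdir := H828.smDir_of_levForm t
  obtain ⟨g1, -⟩ := dir_limit T W hk t.n.smooth hdir hA hP hΛ hμ (k₀ + 1)
  obtain ⟨-, g2⟩ := dir_limit T W hk t.n.smooth hdir hA hP hΛ hμ k₀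
  obtain ⟨f1, f2⟩ := hdir o.x rfl
  have h23 : ball (0 : E2) 2 ⊆ ball 0 3 := ball_subset_ball (by norm_num)
  have hw := H828.star T hR (w := o.x) (r := 2) (by norm_num)
    (G := fun u => P (t.n.x (L.e o.x u))) (G' := fun u => t.f (L.e o.x u))
    g1 ((f1.mono h23).of_le (WithTop.coe_le_coe.2 (le_top : ((k₀ + 1 : ℕ) : ℕ∞) ≤ ⊤)))
    g2 ((f2.mono h23).of_le (WithTop.coe_le_coe.2 (le_top : ((k₀ : ℕ) : ℕ∞) ≤ ⊤)))
  have h0 := hw 0 (mem_ball_self (by norm_num))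
  have hx := (H310.nor_diff t.n (y := o.x) rfl (u := 0) (by simp)).hasFDerivAt
  have d1 : fderiv ℝ (fun u => P (t.n.x (L.e o.x u))) 0
      = P ∘L fderiv ℝ (fun u => t.n.x (L.e o.x u)) 0 := (P.hasFDerivAt.comp (0 : E2) hx).fderiv
  rw [d1, fderiv_f t rfl] at h0
  -- the derivative of the chart is onto
  have hs : Function.Surjective (fderiv ℝ (fun u => t.n.x (L.e o.x u)) 0) := by
    have hdet : (fderiv ℝ (fun u => t.n.x (L.e o.x u)) 0).det ≠ 0 :=
      t.n.deriv o.x rfl 0 (by simp)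
    exact (LinearMap.equivOfDetNeZero _ hdet).surjective
  intro v w
  obtain ⟨v', rfl⟩ := hs v
  obtain ⟨w', rfl⟩ := hs w
  have := h0 v' w'
  simp only [ContinuousLinearMap.comp_apply, pr_apply] at this
  exact this

/-- linear forms and invertible maps -/
theorem exists_lin {G : E2 →L[ℝ] E2} (hG : G.det ≠ 0) (ℓ : E2 →L[ℝ] ℝ) :
    ∃ α β : ℝ, H969.lin α β ∘L G = ℓ := by
  set e := ContinuousLinearMap.toContinuousLinearEquivOfDetNeZero G hG with he
  have hecoe : (e : E2 →L[ℝ] E2) = G := ContinuousLinearMap.coe_toContinuousLinearEquivOfDetNeZero _ hG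
  set m : E2 →L[ℝ] ℝ := ℓ ∘L (e.symm : E2 →L[ℝ] E2) with hm
  refine ⟨m (EuclideanSpace.single 0 1), m (EuclideanSpace.single 1 1), ?_⟩
  have h1 : H969.lin (m (EuclideanSpace.single 0 1)) (m (EuclideanSpace.single 1 1)) = m := by
    ext v
    rw [H969.lin_apply, H969.cov_apply m v]
    ring
  rw [h1, hm, ContinuousLinearMap.comp_assoc, ← hecoe, e.coe_symm_comp_coe,
    ContinuousLinearMap.comp_id]

theorem det_G (t : Nor L o) (W : H147.Fwd o t.x t.N.fn c) (hk : k • o.pos ≠ o.neg) :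
    (W.G (y0 o k)).det ≠ 0 := H310.G_det W (ep_y0 hk)

/-- from `A' ∘ G = D(f ∘ e z₀)(0)` to `A' ∘ B_κ = pr i` -/
theorem Bm_of (t : LevForm A T k₀ o) (W : H147.Fwd o t.n.x t.n.N.fn c)
    (hk : k • o.pos ≠ o.neg) {A' : E2 →L[ℝ] ℝ}
    (hA : A' ∘L W.G (y0 o k) = fderiv ℝ (fun u => t.f (L.e (z0 o k) u)) 0) :
    A' ∘L W.Bm k = pr t.i := by
  have h1 := H310.Bm_hom W k hk
  have hz : L.em (z0 o k) = o.neg := em_z0 hk
  have h2 : W.Bm k ∘L (fderiv ℝ (fun u => t.n.x (L.e (z0 o k) u)) 0) = W.G (y0 o k) := h1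
  rw [fderiv_f t hz, ← h2, ← ContinuousLinearMap.comp_assoc] at hA
  have hs : Function.Surjective (fderiv ℝ (fun u => t.n.x (L.e (z0 o k) u)) 0) := by
    have hdet : (fderiv ℝ (fun u => t.n.x (L.e (z0 o k) u)) 0).det ≠ 0 :=
      t.n.deriv _ hz 0 (by simp)
    exact (LinearMap.equivOfDetNeZero _ hdet).surjective
  ext v
  obtain ⟨v', rfl⟩ := hs v
  exact congrArg (fun m : E2 →L[ℝ] ℝ => m v') hA

/-- **REG, type S** -/
theorem reg_S (hR : Rough T k₀) (t : LevForm A T k₀ o) (hS : t.IsS)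
    (W : H147.Fwd o t.n.x t.n.N.fn c) (hk : k • o.pos ≠ o.neg) :
    ∃ s : ℝ, s ≠ 0 ∧ H969.lin 1 0 ∘L W.Bm k = s • H969.lin 1 0 := by
  obtain ⟨hsp, ⟨μ₁, μ₂, j, hN⟩, hi, -⟩ := hS
  have hok := t.n.ok
  rw [hN] at hok
  have hsp' : |μ₂| < |μ₁| := by
    rw [hN] at hsp
    exact hsp
  obtain ⟨α, β, hA⟩ := exists_lin (det_G t.n W hk) (fderiv ℝ (fun u => t.f (L.e (z0 o k) u)) 0)
  have h2 : 1 < |μ₂| := hok.1
  have hn1 : μ₁ ≠ 0 := abs_pos.1 ((zero_lt_one.trans h2).trans hsp')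
  have hn2 : μ₂ ≠ 0 := abs_pos.1 (zero_lt_one.trans h2)
  have hP : Resc t.n.N.fn (H969.lin α β) (H969.lin 0 β) μ₂ := by
    rw [hN]
    refine resc_tri h2 hok.2.1 hok.2.1 ?_ (fun _ => le_rfl) ?_ ?_
    · nlinarith
    · have h3 : Tendsto (fun m : ℕ => (μ₂ / μ₁) ^ m) atTop (𝓝 0) := by
        refine tendsto_pow_atTop_nhds_zero_of_abs_lt_one ?_
        rw [abs_div, div_lt_one (abs_pos.2 hn1)]
        exact hsp'
      have := h3.const_mul α
      rwa [mul_zero] at this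
    · simp [div_self hn2]
  have h3 := reg_core hR t W hk hA hP h2.le
  rw [hi] at h3
  have h4 := h3 (EuclideanSpace.single 1 1) (EuclideanSpace.single 0 1)
  rw [H969.lin_apply, H969.lin_apply] at h4
  have hβ : β = 0 := by simpa using h4
  subst hβ
  have h5 := Bm_of t W hk hA
  rw [hi] at h5
  have h6 : H969.lin α 0 = α • H969.lin 1 0 := by
    ext v
    rw [_root_.smul_apply, H969.lin_apply, H969.lin_apply, smul_eq_mul]
    ring
  have h7 : pr 0 = H969.lin 1 0 := by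
    ext v
    rw [H969.lin_apply, pr_apply]
    ring
  rw [h6, h7, ContinuousLinearMap.smul_comp] at h5
  have hα : α ≠ 0 := by
    rintro rfl
    rw [zero_smul] at h5
    have := congrArg (fun m : E2 →L[ℝ] ℝ => m (EuclideanSpace.single 0 1)) h5
    simp only [_root_.zero_apply] at this
    rw [H969.lin_apply] at this
    simp at this
  exact ⟨α⁻¹, inv_ne_zero hα, (eq_inv_smul_iff₀ hα).2 h5⟩

/-- **REG, scalar type** -/
theorem reg_C (hR : Rough T k₀) (t : LevForm A T k₀ o) (hC : t.IsC)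
    (W : H147.Fwd o t.n.x t.n.N.fn c) (hk : k • o.pos ≠ o.neg) :
    ∃ s : ℝ, s ≠ 0 ∧ H969.lin 0 1 ∘L W.Bm k = s • H969.lin 0 1 := by
  obtain ⟨⟨μ, j, hN⟩, hi, -⟩ := hC
  have hok := t.n.ok
  rw [hN] at hok
  obtain ⟨α, β, hA⟩ := exists_lin (det_G t.n W hk) (fderiv ℝ (fun u => t.f (L.e (z0 o k) u)) 0)
  have h2 : 1 < |μ| := hok.1
  have hn2 : μ ≠ 0 := abs_pos.1 (zero_lt_one.trans h2)
  have hP : Resc t.n.N.fn (H969.lin α β) (H969.lin α β) μ := by
    rw [hN]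
    refine resc_tri h2 le_rfl le_rfl ?_ (fun _ => le_rfl) ?_ ?_
    · nlinarith
    · simp [div_self hn2]
    · simp [div_self hn2]
  have h3 := reg_core hR t W hk hA hP h2.le
  rw [hi] at h3
  have h4 := h3 (EuclideanSpace.single 0 1) (EuclideanSpace.single 1 1)
  rw [H969.lin_apply, H969.lin_apply] at h4
  have hα : α = 0 := by simpa using h4
  subst hα
  have h5 := Bm_of t W hk hA
  rw [hi] at h5
  have h6 : H969.lin 0 β = β • H969.lin 0 1 := by
    ext v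
    rw [_root_.smul_apply, H969.lin_apply, H969.lin_apply, smul_eq_mul]
    ring
  have h7 : pr 1 = H969.lin 0 1 := by
    ext v
    rw [H969.lin_apply, pr_apply]
    ring
  rw [h6, h7, ContinuousLinearMap.smul_comp] at h5
  have hβ : β ≠ 0 := by
    rintro rfl
    rw [zero_smul] at h5
    have := congrArg (fun m : E2 →L[ℝ] ℝ => m (EuclideanSpace.single 1 1)) h5
    simp only [_root_.zero_apply] at this
    rw [H969.lin_apply] at this
    simp at this
  exact ⟨β⁻¹, inv_ne_zero hβ, (eq_inv_smul_iff₀ hβ).2 h5⟩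

/-- for type F with `λ₁ < 2 λ₂` the normal form is diagonal and `|μ₁| < |μ₂|²` -/
theorem nf_of_F (t : LevForm A T k₀ o) (hF : t.IsF) (hr : t.n.lam1 < 2 * t.n.lam2) :
    ∃ μ₁ μ₂ j, t.n.N = .tri μ₁ μ₂ 0 j ∧ |μ₁| < |μ₂| ^ 2 ∧ |μ₂| < |μ₁| ∧ 1 < |μ₂| := by
  obtain ⟨hsp, -, -⟩ := hF
  have hok := t.n.ok
  have hl := o.ax.pos
  unfold Nor.lam1 Nor.lam2 at hr
  cases hN : t.n.N with
  | cx c s =>
    rw [hN] at hsp
    exact absurd hsp (lt_irrefl _)
  | tri μ₁ μ₂ a j =>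
    rw [hN] at hsp hok hr
    have h1 : 1 < |μ₂| := hok.1
    have h12 : |μ₂| < |μ₁| := hsp
    have h3 : |μ₁| < |μ₂| ^ 2 := by
      have h4 : Real.log |μ₁| < 2 * Real.log |μ₂| := by
        have e1 : (H790.NF.tri μ₁ μ₂ a j).m1 = |μ₁| := rfl
        have e2 : (H790.NF.tri μ₁ μ₂ a j).m2 = |μ₂| := rfl
        rw [e1, e2, ← mul_div_assoc, div_lt_div_iff_of_pos_right hl] at hr
        exact hr
      rw [← Real.log_lt_log_iff (by linarith) (by positivity), Real.log_pow]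
      push_cast
      exact h4
    have ha : a = 0 := by
      by_contra ha
      obtain ⟨hj1, hj⟩ := hok.2.2 ha
      have e1 : |μ₁| = |μ₂| ^ j := by rw [hj, abs_pow]
      rw [e1] at h3 h12
      have j1 : 1 < j := by
        by_contra hc
        have : j = 1 := by omega
        rw [this, pow_one] at h12
        exact lt_irrefl _ h12
      have := (pow_lt_pow_iff_right₀ h1).1 h3
      omega
    subst ha
    exact ⟨μ₁, μ₂, j, rfl, h3, h12, h1⟩

/-- **REG, type F, `λ₁ < 2 λ₂`** -/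
theorem reg_F (hR : Rough T k₀) (t : LevForm A T k₀ o) (hF : t.IsF)
    (hr : t.n.lam1 < 2 * t.n.lam2)
    (W : H147.Fwd o t.n.x t.n.N.fn c) (hk : k • o.pos ≠ o.neg) :
    (W.Bm k (EuclideanSpace.single 0 1)) 0 ≠ 0 := by
  obtain ⟨μ₁, μ₂, j, hN, hμ, h12, h2⟩ := nf_of_F t hF hr
  have hi : t.i = 1 := hF.2.1
  obtain ⟨α, β, hA⟩ := exists_lin (det_G t.n W hk) (fderiv ℝ (fun u => t.f (L.e (z0 o k) u)) 0)
  have hn1 : μ₁ ≠ 0 := abs_pos.1 ((zero_lt_one.trans h2).trans h12)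
  have hn2 : μ₂ ≠ 0 := abs_pos.1 (zero_lt_one.trans h2)
  have h5 := Bm_of t W hk hA
  rw [hi] at h5
  have hβ : β ≠ 0 := by
    rintro rfl
    have hP : Resc t.n.N.fn (H969.lin α 0) (H969.lin α 0) μ₁ := by
      rw [hN]
      refine resc_tri h2 h12.le le_rfl hμ (fun h => absurd rfl h) ?_ ?_
      · simp [div_self hn1]
      · simp
    have h3 := reg_core hR t W hk hA hP (h2.trans h12).le
    rw [hi] at h3
    have h4 := h3 (EuclideanSpace.single 0 1) (EuclideanSpace.single 1 1)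
    rw [H969.lin_apply, H969.lin_apply] at h4
    have hα : α = 0 := by simpa using h4
    subst hα
    have h6 := congrArg (fun m : E2 →L[ℝ] ℝ => m (EuclideanSpace.single 1 1)) h5
    simp only [ContinuousLinearMap.comp_apply, pr_apply] at h6
    rw [H969.lin_apply] at h6
    simp at h6
  intro h0
  -- then the matrix is singular
  have h6 := congrArg (fun m : E2 →L[ℝ] ℝ => m (EuclideanSpace.single 0 1)) h5
  simp only [ContinuousLinearMap.comp_apply, pr_apply] at h6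
  rw [H969.lin_apply, h0, mul_zero, zero_add] at h6
  have h7 : (W.Bm k (EuclideanSpace.single 0 1)) 1 = 0 := by
    have : (EuclideanSpace.single (0 : Fin 2) (1 : ℝ)) 1 = 0 := by simp
    rw [this] at h6
    exact (mul_eq_zero.1 h6).resolve_left hβ
  have h8 := H310.Bm_det W k hk
  rw [det_eq, Matrix.det_fin_two, mx_apply, mx_apply, mx_apply, mx_apply, h0, h7] at h8
  simp at h8

end Vale.Agent.P207.N3.H905
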