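import Vale.Agent.P207.N3.H905.RegD
import Vale.Agent.P207.N3.H319.Fin

/-!
# P207, line N3: REG in the form of helper319 (`RegS`, `RegF`) and of `Top/Asm.Rem`
-/

open Set Filter Topology Metric MeasureTheory
open scoped ContDiff

set_option linter.unusedSectionVars false

noncomputable section

namespace Vale.Agent.P207.N3.H905

variable {Γ X B : Type} [Group Γ] [MetricSpace X] [ProperSpace X] [MulAction Γ X]
  [IsIsometricSMul Γ X] [TopologicalSpace B] [CompactSpace B] [T2Space B] [MulAction Γ B]
  [ContinuousConstSMul Γ B] {L : Leaf Γ X B}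
  [MeasurableSpace B] [BorelSpace B] (A : Area L) (T : Tens L)

/-- regularity of the homoclinic points of the orbits of type S and C -/
theorem regS (k₀ : ℕ) (hR : Rough T k₀) (c : ℝ) : H319.RegS A T k₀ c := by
  intro p W k h hk
  rcases h with h | h
  · obtain ⟨s, hs, h1⟩ := reg_S hR p.t h W hk
    refine ⟨s, hs, fun v => ?_⟩
    have h2 := congrArg (fun m : E2 →L[ℝ] ℝ => m v) h1
    simp only [ContinuousLinearMap.comp_apply, _root_.smul_apply, smul_eq_mul] at h2
    rw [H969.lin_apply, H969.lin_apply] at h2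
    rw [h.2.2.1]
    simpa using h2
  · obtain ⟨s, hs, h1⟩ := reg_C hR p.t h W hk
    refine ⟨s, hs, fun v => ?_⟩
    have h2 := congrArg (fun m : E2 →L[ℝ] ℝ => m v) h1
    simp only [ContinuousLinearMap.comp_apply, _root_.smul_apply, smul_eq_mul] at h2
    rw [H969.lin_apply, H969.lin_apply] at h2
    rw [h.2.1]
    simpa using h2

/-- regularity of the homoclinic points of the orbits of type F with `r < 2` -/
theorem regF (k₀ : ℕ) (hR : Rough T k₀) (c : ℝ) : H319.RegF A T k₀ c :=
  fun p W _ hF hr hk => reg_F hR p.t hF hr W hk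

/-- the field `regS` of `Rem` -/
theorem out_regS : ∀ k₀, Rough T k₀ → ∀ c > 0, H319.RegS A T k₀ c :=
  fun k₀ hR c _ => regS A T k₀ hR c

/-- the field `regF` of `Rem` -/
theorem out_regF : ∀ k₀, Rough T k₀ → ∀ c > 0, H319.RegF A T k₀ c :=
  fun k₀ hR c _ => regF A T k₀ hR c

end Vale.Agent.P207.N3.H905
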